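import Vale.Agent.P315.H132.Net
import Vale.Agent.P315.C.StructRd

/-!
P315, row C-H3 (helper132): the certified cost of a region is below the cost of the stored path
which is the lane of a machine, one window later (additive geometry).
-/

set_option autoImplicit false

open Finset

namespace Vale.Agent.P315.H132

open H801 H220 Vale.Agent.P315.C

/-- Cost of a path of nodes: shifts in the first and in the last row. -/
theorem rcost_nodes {K Tu g μ B a : ℕ} (hK : 0 < K) (D : ℕ → ℕ → ℕ → ℕ → ℕ → ℕ) (κ : ℕ)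
    (f : ℕ → ℕ) :
    rcost 2 K (fun m => D κ m (labN K Tu a (posN μ B (a * (K * Tu)) Tu g (f (m + 1)))))
      (posN μ B (a * (K * Tu)) Tu g (f 0)) (posN μ B (a * (K * Tu)) Tu g (f (K + 2)))
      (fun m => (posN μ B (a * (K * Tu)) Tu g (f (m + 1)),
        posN μ B (a * (K * Tu)) Tu g (f (m + 2)))) =
      ∑ i ∈ range (K + 2), nodeD K Tu g μ B a D κ i (f i) (f (i + 1)) := by
  obtain ⟨K, rfl⟩ : ∃ k, K = k + 1 := ⟨K - 1, by omega⟩
  set P := posN μ B (a * ((K + 1) * Tu)) Tu g with hP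
  unfold rcost
  rw [Finset.sum_add_distrib, Finset.sum_range_succ' (fun m => 2 * Nat.dist _ _)]
  rw [Finset.sum_range_succ _ (K + 1 + 1), Finset.sum_range_succ' _ (K + 1)]
  have h1 : ∑ m ∈ range K, 2 * Nat.dist (prevPos (P (f 0))
      (fun m => (P (f (m + 1)), P (f (m + 2)))) (m + 1)) (P (f (m + 1 + 1))) = 0 := by
    refine Finset.sum_eq_zero fun m _ => ?_
    show 2 * Nat.dist (P (f (m + 2))) (P (f (m + 1 + 1))) = 0
    rw [Nat.dist_self]
  have h2 : ∀ x y, 2 * Nat.dist x y = 2 * ((x - y) + (y - x)) := fun x y => rfl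
  have h3 : nodeD (K + 1) Tu g μ B a D κ 0 (f 0) (f (0 + 1)) =
      2 * Nat.dist (P (f 0)) (P (f (0 + 1))) := by
    unfold nodeD
    rw [if_neg (by omega), h2]
  have h4 : nodeD (K + 1) Tu g μ B a D κ (K + 1 + 1) (f (K + 1 + 1)) (f (K + 1 + 1 + 1)) =
      2 * Nat.dist (P (f (K + 2))) (P (f (K + 1 + 2))) := by
    unfold nodeD
    rw [if_neg (by omega), h2]
  have h5 : ∀ m ∈ range (K + 1), nodeD (K + 1) Tu g μ B a D κ (m + 1) (f (m + 1))
      (f (m + 1 + 1)) = D κ m (labN (K + 1) Tu a (P (f (m + 1)))) (P (f (m + 1)))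
        (P (f (m + 2))) := by
    intro m hm
    have := Finset.mem_range.1 hm
    unfold nodeD
    rw [if_pos ⟨by omega, by omega⟩, Nat.add_sub_cancel]
  rw [Finset.sum_congr rfl h5, h3, h4, h1]
  show 0 + 2 * Nat.dist (P (f 0)) (P (f (0 + 1))) + _ + 2 * Nat.dist (P (f (K + 2)))
    (P (f (K + 1 + 2))) = _
  ring

/-- The edges of a stored path are given by its nodes. -/
theorem pk_nodes {K h Tu g NL Dl R T Sh Cc μ B q κ a n : ℕ} {D : ℕ → ℕ → ℕ → ℕ → ℕ → ℕ}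
    (hn : n < T) : ∃ f : ℕ → ℕ, f 0 = qA g q * K ∧ f (K + 2) = qB g q * K ∧
      ∀ i : Fin (K + 2), ((pk K h Tu g NL Dl R T Sh Cc μ B q κ a D n i).1 : ℕ) = f i ∧
        ((pk K h Tu g NL Dl R T Sh Cc μ B q κ a D n i).2 : ℕ) = f (i + 1) := by
  obtain ⟨f, hf, f0, fK, fj⟩ := nodes_spec (K := K) (h := h) (Tu := Tu) (g := g) (NL := NL)
    (Dl := Dl) (R := R) (Sh := Sh) (C := Cc) (μ := μ) (B := B) (q := q) (κ := κ) (a := a)
    (D := D) hn
  refine ⟨f, f0, fK, fun i => ?_⟩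
  have hi := i.2
  unfold pk
  rw [hf]
  unfold H763.edge
  simp only
  rw [H763.getD_map_range' _ _ (by omega), H763.getD_map_range' _ _ (by omega),
    Nat.mod_eq_of_lt (fj _ (by omega)), Nat.mod_eq_of_lt (fj _ (by omega))]
  exact ⟨rfl, rfl⟩

/-- **The certified cost is below the cost of the stored path**, one window later. -/
theorem cR_le_stored {M ℓ μ B J S H : ℕ} (X : MP) {ω : Rnd} {vis hid : Leaf}
    (hM : 0 < M) (hE : ∃ p q, H140.Ed (boxPar M ℓ μ B J S H) p q)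
    (hle : HidLe (boxPar M ℓ μ B J S H) vis hid)
    {j i a s q κ : ℕ} {b : ℤ} (hj : 0 < j) (hs : s < S) (hsj : 2 ^ s ∣ j) (hq : q < X.cnt s)
    (hκ : (κ : ℤ) ≤ b + H) (hT : 0 < X.T s) {D : ℕ → ℕ → ℕ → ℕ → ℕ → ℕ}
    (hD : D = hist (boxPar M ℓ μ B J S H) ω vis hid
      (rd (boxPar M ℓ μ B J S H) (mach X M ℓ μ B) ω vis hid) j i a s) {K Tu : ℕ}
    (hK : K = M ^ 2 ^ s) (hTu : Tu = ℓ * M ^ (j - 2 ^ s)) :
    cR (boxPar M ℓ μ B J S H) (mach X M ℓ μ B) ω vis hid j i a b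
        (posN μ B (a * (K * Tu)) Tu (X.g s) (qA (X.g s) q * K))
        (posN μ B (a * (K * Tu)) Tu (X.g s) (qB (X.g s) q * K)) ≤
      ∑ i' : Fin (K + 2), nodeD K Tu (X.g s) μ B a D (κ + 2 ^ s) i'
        (pk K (2 ^ s) Tu (X.g s) (X.NL s) (X.Dl s) (X.R s) (X.T s) (X.Sh s) X.C μ B q κ a D
          (ω.coin j s (qS (X.g s) (X.NL s) (X.Dl s) (X.R s) q) % X.T s) i').1
        (pk K (2 ^ s) Tu (X.g s) (X.NL s) (X.Dl s) (X.R s) (X.T s) (X.Sh s) X.C μ B q κ a D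
          (ω.coin j s (qS (X.g s) (X.NL s) (X.Dl s) (X.R s) q) % X.T s) i').2 := by
  have hK0 : 0 < K := hK ▸ pow_pos hM _
  obtain ⟨f, f0, fK, fe⟩ := pk_nodes (K := K) (h := 2 ^ s) (Tu := Tu) (g := X.g s)
    (NL := X.NL s) (Dl := X.Dl s) (R := X.R s) (Sh := X.Sh s) (Cc := X.C) (μ := μ) (B := B)
    (q := q) (κ := κ) (a := a) (D := D)
    (Nat.mod_lt (ω.coin j s (qS (X.g s) (X.NL s) (X.Dl s) (X.R s) q)) hT)
  have h1 := cR_le_lane (P := boxPar M ℓ μ B J S H) (mc := mach X M ℓ μ B) (ω := ω) (i := i)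
    (a := a) hE hle (b := b) hj hs hsj hq hκ
    (posN μ B (a * (K * Tu)) Tu (X.g s) (qA (X.g s) q * K))
    (posN μ B (a * (K * Tu)) Tu (X.g s) (qB (X.g s) q * K))
  refine h1.trans (le_of_eq ?_)
  have h2 : ∀ m, m < K → laneOf (boxPar M ℓ μ B J S H) (mach X M ℓ μ B) ω vis hid
      (rd (boxPar M ℓ μ B J S H) (mach X M ℓ μ B) ω vis hid) j i a s q κ m =
      piece K Tu (X.g s) μ B a (f (m + 1)) (f (m + 2)) := by
    intro m hm
    have h3 := laneN_eq (K := K) (h := 2 ^ s) (Tu := Tu) (g := X.g s)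
      (NL := X.NL s) (Dl := X.Dl s) (R := X.R s) (Sh := X.Sh s) (C := X.C) (μ := μ) (B := B)
      (q := q) (κ := κ) (a := a) (D := D) (coin := ω.coin j s) hT hm
    rw [(fe _).1, (fe _).2] at h3
    unfold laneOf
    rw [← hD]
    subst hK hTu
    exact h3
  have h4 : ∑ i' : Fin (K + 2), nodeD K Tu (X.g s) μ B a D (κ + 2 ^ s) i'
        (pk K (2 ^ s) Tu (X.g s) (X.NL s) (X.Dl s) (X.R s) (X.T s) (X.Sh s) X.C μ B q κ a D
          (ω.coin j s (qS (X.g s) (X.NL s) (X.Dl s) (X.R s) q) % X.T s) i').1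
        (pk K (2 ^ s) Tu (X.g s) (X.NL s) (X.Dl s) (X.R s) (X.T s) (X.Sh s) X.C μ B q κ a D
          (ω.coin j s (qS (X.g s) (X.NL s) (X.Dl s) (X.R s) q) % X.T s) i').2 =
      ∑ i' ∈ range (K + 2), nodeD K Tu (X.g s) μ B a D (κ + 2 ^ s) i' (f i') (f (i' + 1)) := by
    rw [← Fin.sum_univ_eq_sum_range (fun i' => nodeD K Tu (X.g s) μ B a D (κ + 2 ^ s) i' (f i')
      (f (i' + 1)))]
    exact Finset.sum_congr rfl fun i' _ => by rw [(fe i').1, (fe i').2]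
  rw [h4, ← rcost_nodes hK0 D (κ + 2 ^ s) f, f0, fK]
  show rcost 2 (M ^ 2 ^ s) _ _ _ _ = _
  rw [← hK, ← hD]
  refine rcost_congr (fun m hm => ?_) fun m hm => ?_
  · rw [h2 m hm]; rfl
  · rw [h2 m hm]; rfl

end Vale.Agent.P315.H132
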