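import Vale.Agent.P315.H801.Mach

/-!
P315, row C-H3 (helper132): the comparison path of a region on the net of the machines (additive
geometry, end rows).

`z u` = position of the comparison path before the unit row `u`, `η` = distance of the nodes. The
path of nodes starts at the coarse node below `z 0`, goes through the nodes below `z 0, …, z K` and
ends at the coarse node below `z K`.
-/

set_option autoImplicit false

open Finset

namespace Vale.Agent.P315.H132

open H801

/-- Geometry of one region. -/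
structure Net (K Tu g μ B a η : ℕ) (z : ℕ → ℕ) : Prop where
  hK : 0 < K
  hg : 0 < g
  hη : 0 < η
  hμ : 0 < μ
  hTu : Tu = g * η
  hμη : μ ∣ η
  lo : a * (K * Tu) ≤ z 0
  up : z 0 < (a + 1) * (K * Tu)
  mono : ∀ u, u < K → z u ≤ z (u + 1)
  step : ∀ u, u < K → z (u + 1) ≤ z u + Tu
  le_B : z K ≤ B

/-- Node below the position `x`. -/
def nd (K Tu a η x : ℕ) : ℕ := (x - a * (K * Tu)) / η

/-- Coarse node below the position `x`, divided by `K`. -/
def cn (K Tu a η x : ℕ) : ℕ := (x - a * (K * Tu)) / (K * η)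

/-- The nodes of the comparison path. -/
def FF (K Tu a η : ℕ) (z : ℕ → ℕ) (i : ℕ) : ℕ :=
  if i = 0 then cn K Tu a η (z 0) * K
  else if i ≤ K + 1 then nd K Tu a η (z (i - 1)) else cn K Tu a η (z K) * K

namespace Net

variable {K Tu g μ B a η : ℕ} {z : ℕ → ℕ} (N : Net K Tu g μ B a η z)
include N

theorem mono' {u v : ℕ} (h : u ≤ v) (hv : v ≤ K) : z u ≤ z v := by
  induction v with
  | zero => obtain rfl : u = 0 := by omega
            exact le_rfl
  | succ v ih =>
    rcases Nat.lt_or_ge v u with h1 | h1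
    · obtain rfl : u = v + 1 := by omega
      exact le_rfl
    · exact (ih h1 (by omega)).trans (N.mono v (by omega))

theorem step' (u : ℕ) (hu : u ≤ K) : z u ≤ z 0 + u * Tu := by
  induction u with
  | zero => simp
  | succ u ih =>
    have h1 := N.step u (by omega)
    have h2 := ih (by omega)
    have h3 : (u + 1) * Tu = u * Tu + Tu := by ring
    omega

theorem lo' {u : ℕ} (hu : u ≤ K) : a * (K * Tu) ≤ z u := N.lo.trans (N.mono' (Nat.zero_le _) hu)

theorem up' {u : ℕ} (hu : u ≤ K) : z u < (a + 2) * (K * Tu) := by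
  have h1 := N.step' u hu
  have h2 := N.up
  have h3 : u * Tu ≤ K * Tu := Nat.mul_le_mul_right _ hu
  have h4 : (a + 2) * (K * Tu) = (a + 1) * (K * Tu) + K * Tu := by ring
  omega

theorem le_B' {u : ℕ} (hu : u ≤ K) : z u ≤ B := (N.mono' hu le_rfl).trans N.le_B

theorem posN_eq {x : ℕ} (h : a * (K * Tu) + x * η ≤ B) :
    posN μ B (a * (K * Tu)) Tu g x = a * (K * Tu) + x * η := by
  unfold posN
  have h1 : x * Tu / g = x * η := by
    rw [N.hTu, show x * (g * η) = g * (x * η) by ring, Nat.mul_div_cancel_left _ N.hg]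
  rw [h1]
  have h2 : μ ∣ a * (K * Tu) + x * η := by
    refine dvd_add ?_ (Dvd.dvd.mul_left N.hμη _)
    rw [N.hTu, show a * (K * (g * η)) = a * K * g * η by ring]
    exact Dvd.dvd.mul_left N.hμη _
  rw [Nat.min_eq_left (Nat.div_le_div_right h), Nat.mul_div_cancel' h2]

theorem nd_le {u : ℕ} (hu : u ≤ K) :
    a * (K * Tu) + nd K Tu a η (z u) * η ≤ z u ∧
      z u < a * (K * Tu) + nd K Tu a η (z u) * η + η := by
  unfold nd
  have h1 := N.lo' hu
  have h2 := Nat.div_add_mod' (z u - a * (K * Tu)) η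
  have h3 := Nat.mod_lt (z u - a * (K * Tu)) N.hη
  omega

theorem cn_le {u : ℕ} (hu : u ≤ K) :
    a * (K * Tu) + cn K Tu a η (z u) * K * η ≤ z u ∧
      z u < a * (K * Tu) + cn K Tu a η (z u) * K * η + K * η := by
  unfold cn
  have h1 := N.lo' hu
  have h2 := Nat.div_add_mod' (z u - a * (K * Tu)) (K * η)
  have h3 := Nat.mod_lt (z u - a * (K * Tu)) (Nat.mul_pos N.hK N.hη)
  rw [mul_assoc]
  omega

theorem nd_lt {u : ℕ} (hu : u ≤ K) : nd K Tu a η (z u) < 2 * K * g := by
  unfold nd
  rw [Nat.div_lt_iff_lt_mul N.hη]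
  have h1 := N.up' hu
  have h2 := N.lo' hu
  have h3 : 2 * K * g * η = 2 * (K * Tu) := by rw [N.hTu]; ring
  have h4 : (a + 2) * (K * Tu) = a * (K * Tu) + 2 * (K * Tu) := by ring
  omega

theorem cn_zero_le : cn K Tu a η (z 0) ≤ g := by
  unfold cn
  refine Nat.le_of_lt ?_
  rw [Nat.div_lt_iff_lt_mul (Nat.mul_pos N.hK N.hη)]
  have h1 := N.up
  have h3 : g * (K * η) = K * Tu := by rw [N.hTu]; ring
  have h4 : (a + 1) * (K * Tu) = a * (K * Tu) + K * Tu := by ring
  have h5 := N.lo
  omega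

theorem cn_K_le : cn K Tu a η (z K) ≤ 2 * g := by
  unfold cn
  refine Nat.le_of_lt ?_
  rw [Nat.div_lt_iff_lt_mul (Nat.mul_pos N.hK N.hη)]
  have h1 := N.up' (u := K) le_rfl
  have h2 := N.lo' (u := K) le_rfl
  have h3 : 2 * g * (K * η) = 2 * (K * Tu) := by rw [N.hTu]; ring
  have h4 : (a + 2) * (K * Tu) = a * (K * Tu) + 2 * (K * Tu) := by ring
  omega

theorem FF_zero : FF K Tu a η z 0 = cn K Tu a η (z 0) * K := by simp [FF]

theorem FF_last : FF K Tu a η z (K + 2) = cn K Tu a η (z K) * K := by simp [FF]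

theorem FF_mid {u : ℕ} (hu : u ≤ K) : FF K Tu a η z (u + 1) = nd K Tu a η (z u) := by
  unfold FF
  rw [if_neg (by omega), if_pos (by omega), Nat.add_sub_cancel]

theorem FF_lt (i : ℕ) : FF K Tu a η z i < 2 * K * g + 1 := by
  unfold FF
  split_ifs with h1 h2
  · have := Nat.mul_le_mul_right K N.cn_zero_le
    have h3 : 2 * K * g = g * K + g * K := by ring
    omega
  · have := N.nd_lt (u := i - 1) (by omega)
    omega
  · have := Nat.mul_le_mul_right K N.cn_K_le
    have h3 : 2 * K * g = 2 * g * K := by ring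
    omega

theorem pos_mid {u : ℕ} (hu : u ≤ K) :
    posN μ B (a * (K * Tu)) Tu g (FF K Tu a η z (u + 1)) =
      a * (K * Tu) + nd K Tu a η (z u) * η := by
  rw [N.FF_mid hu]
  exact N.posN_eq ((N.nd_le hu).1.trans (N.le_B' hu))

theorem pos_zero : posN μ B (a * (K * Tu)) Tu g (cn K Tu a η (z 0) * K) =
    a * (K * Tu) + cn K Tu a η (z 0) * K * η :=
  N.posN_eq ((N.cn_le (Nat.zero_le _)).1.trans (N.le_B' (Nat.zero_le _)))

theorem pos_last : posN μ B (a * (K * Tu)) Tu g (cn K Tu a η (z K) * K) =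
    a * (K * Tu) + cn K Tu a η (z K) * K * η :=
  N.posN_eq ((N.cn_le le_rfl).1.trans (N.le_B' le_rfl))

/-- The label of the node is the label of the comparison path. -/
theorem lab_mid {u : ℕ} (hu : u < K) :
    labN K Tu a (posN μ B (a * (K * Tu)) Tu g (FF K Tu a η z (u + 1))) = z u / Tu := by
  have hTu0 : 0 < Tu := by rw [N.hTu]; exact Nat.mul_pos N.hg N.hη
  rw [N.pos_mid hu.le]
  have h1 := N.lo' hu.le
  have h2 := N.up' hu.le
  have e1 : (a * (K * Tu) + nd K Tu a η (z u) * η) / Tu = z u / Tu := by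
    have h3 : z u = (z u - a * (K * Tu)) + a * K * Tu := by
      have : a * K * Tu = a * (K * Tu) := by ring
      omega
    have h4 : a * (K * Tu) + nd K Tu a η (z u) * η = nd K Tu a η (z u) * η + a * K * Tu := by ring
    rw [h4]
    conv_rhs => rw [h3]
    rw [Nat.add_mul_div_right _ _ hTu0, Nat.add_mul_div_right _ _ hTu0]
    congr 1
    unfold nd
    conv_lhs => rw [N.hTu]
    conv_rhs => rw [N.hTu]
    rw [Nat.mul_comm g η, ← Nat.div_div_eq_div_mul, ← Nat.div_div_eq_div_mul,
      Nat.mul_div_cancel _ N.hη]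
  unfold labN
  rw [e1]
  have h5 : a * K ≤ z u / Tu := by
    rw [Nat.le_div_iff_mul_le hTu0, mul_assoc]
    exact h1
  have h6 : z u / Tu < (a + 2) * K := by
    rw [Nat.div_lt_iff_lt_mul hTu0, mul_assoc]
    exact h2
  omega

end Net

end Vale.Agent.P315.H132
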