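import Vale.Agent.P315.H132.Plug
import Vale.Agent.P315.H855.Top
import Vale.Agent.P315.H381.ZBox
import Vale.Agent.P315.H295.Cls

/-!
P315, row C-H3 (helper132): the machine inequality of the accounting for one top, one offset and
one class, for the machines of the additive geometry (`H801.mach`) and an instance with the
weights `ℓ`.
-/

set_option autoImplicit false

open Finset

namespace Vale.Agent.P315.H132

open H801 H220 H381 H808 Vale.Agent.P315.C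

section

variable {M ℓ μ B J S H n : ℕ} {vis hid : Leaf} {Ch : Chain (boxPar M ℓ μ B J S H) vis hid n}

/-- Geometry of the comparison path of an instance. -/
theorem boxGeo {η : ℝ} (hI : Inst (boxPar M ℓ μ B J S H) vis hid n η Ch) : BoxGeo Ch where
  adm := fun i hi => hI.adm i hi
  pos_le := hI.pos_le
  lab_eq := fun j i hj hi => hI.lab_eq j i hj hi

theorem instEd {η : ℝ} (hI : Inst (boxPar M ℓ μ B J S H) vis hid n η Ch) :
    ∃ p q, H140.Ed (boxPar M ℓ μ B J S H) p q := by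
  obtain ⟨p, h1, h2, h3⟩ := hI.pt
  exact ⟨p, p, h1, h1, h2, h2, h3⟩

theorem instHidLe {η : ℝ} (hI : Inst (boxPar M ℓ μ B J S H) vis hid n η Ch) :
    HidLe (boxPar M ℓ μ B J S H) vis hid := fun i p q h => hI.hid_le i p q h.2.2.2.2

/-- The certified cost along the comparison path is at most twice the length. -/
theorem cR_le_two {η : ℝ} (mc : Mach) (ω : Rnd)
    (hI : Inst (boxPar M ℓ μ B J S H) vis hid n η Ch) (hM : 0 < M) (hμ : 0 < μ) (hμℓ : μ ∣ ℓ)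
    (h4 : 4 * μ ≤ ℓ) {j i : ℕ} (hj : j ≤ n) (hi : i < M ^ (n - j)) (a : ℕ) (b : ℤ) :
    cR (boxPar M ℓ μ B J S H) mc ω vis hid j i a b (Ch.pos (i * M ^ j))
      (Ch.pos ((i + 1) * M ^ j)) ≤ 2 * (ℓ * M ^ j) := by
  have hE := instEd hI
  have hle := instHidLe hI
  have hMj : 0 < M ^ j := Nat.pow_pos hM
  set z : ℕ → ℕ := fun m => μ * (Ch.pos (i * M ^ j + m) / μ) with hz
  have hn : ∀ m, m ≤ M ^ j → i * M ^ j + m ≤ M ^ n := by
    intro m hm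
    calc i * M ^ j + m ≤ i * M ^ j + M ^ j := by omega
      _ = (i + 1) * M ^ j := by ring
      _ ≤ M ^ (n - j) * M ^ j := Nat.mul_le_mul_right _ hi
      _ = M ^ n := by rw [← pow_add, Nat.sub_add_cancel hj]
  have h1 : cR (boxPar M ℓ μ B J S H) mc ω vis hid j i a b (z 0) (z (M ^ j)) ≤ M ^ j * ℓ := by
    refine (cR_le_vis hE hle j i a b _ _).trans ?_
    refine (H140.best_le_rcost (P := boxPar M ℓ μ B J S H) (i * M ^ j) (M ^ j) (z 0) (z (M ^ j))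
      (fun m => (z m, z (m + 1))) ?_).trans ?_
    · intro m hm
      have hm' : m < M ^ j := hm
      have hp := hI.pos_le (i * M ^ j + m) (hn m hm'.le)
      have hp' := hI.pos_le (i * M ^ j + (m + 1)) (hn (m + 1) hm')
      have h3 : Ch.pos (i * M ^ j + m) ≤ Ch.pos (i * M ^ j + m + 1) ∧
          Ch.pos (i * M ^ j + m + 1) ≤ Ch.pos (i * M ^ j + m) + ℓ :=
        hI.adm (i * M ^ j + m) (lt_of_lt_of_le (by omega) (hn (m + 1) hm'))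
      refine ⟨Dvd.intro _ rfl, Dvd.intro _ rfl, (Nat.mul_div_le _ _).trans hp,
        (Nat.mul_div_le _ _).trans hp', ?_, ?_⟩
      · exact Nat.mul_le_mul_left _ (Nat.div_le_div_right h3.1)
      · obtain ⟨c, hc⟩ := hμℓ
        show μ * (Ch.pos (i * M ^ j + m + 1) / μ) ≤ μ * (Ch.pos (i * M ^ j + m) / μ) + ℓ
        have h5 : Ch.pos (i * M ^ j + m + 1) / μ ≤ Ch.pos (i * M ^ j + m) / μ + c := by
          rw [← Nat.add_mul_div_left _ _ hμ, ← hc]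
          exact Nat.div_le_div_right h3.2
        calc μ * (Ch.pos (i * M ^ j + m + 1) / μ) ≤ μ * (Ch.pos (i * M ^ j + m) / μ + c) :=
              Nat.mul_le_mul_left _ h5
          _ = μ * (Ch.pos (i * M ^ j + m) / μ) + ℓ := by rw [Nat.mul_add, ← hc]
    · rw [rcost_path]
      calc ∑ m ∈ range (M ^ j), vis (i * M ^ j + m) (z m) (z (m + 1)) ≤
            ∑ _m ∈ range (M ^ j), ℓ := by
            refine Finset.sum_le_sum fun m hm => ?_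
            have hm' := Finset.mem_range.1 hm
            refine hI.vis_le _ _ _ ?_
            have h3 : Ch.pos (i * M ^ j + m) ≤ Ch.pos (i * M ^ j + m + 1) ∧
                Ch.pos (i * M ^ j + m + 1) ≤ Ch.pos (i * M ^ j + m) + ℓ :=
              hI.adm (i * M ^ j + m) (lt_of_lt_of_le (by omega) (hn (m + 1) hm'))
            refine ⟨Nat.mul_le_mul_left _ (Nat.div_le_div_right h3.1), ?_⟩
            obtain ⟨c, hc⟩ := hμℓ
            have h5 : Ch.pos (i * M ^ j + m + 1) / μ ≤ Ch.pos (i * M ^ j + m) / μ + c := by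
              rw [← Nat.add_mul_div_left _ _ hμ, ← hc]
              exact Nat.div_le_div_right h3.2
            show μ * (Ch.pos (i * M ^ j + m + 1) / μ) ≤ μ * (Ch.pos (i * M ^ j + m) / μ) + ℓ
            calc μ * (Ch.pos (i * M ^ j + m + 1) / μ) ≤
                  μ * (Ch.pos (i * M ^ j + m) / μ + c) := Nat.mul_le_mul_left _ h5
              _ = μ * (Ch.pos (i * M ^ j + m) / μ) + ℓ := by rw [Nat.mul_add, ← hc]
        _ = M ^ j * ℓ := by rw [Finset.sum_const, card_range, smul_eq_mul]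
  have h2 := cR_lip (mc := mc) (ω := ω) (vis := vis) (hid := hid) hE j i a b
    (Ch.pos (i * M ^ j)) (z 0) (Ch.pos ((i + 1) * M ^ j)) (z (M ^ j))
  have e2 : (boxPar M ℓ μ B J S H).sh = 2 := rfl
  rw [e2] at h2
  have hfl : ∀ x, Nat.dist x (μ * (x / μ)) ≤ μ ∧ Nat.dist (μ * (x / μ)) x ≤ μ := by
    intro x
    have h5 := Nat.div_add_mod x μ
    have h6 := Nat.mod_lt x hμ
    unfold Nat.dist
    omega
  have e0 : z 0 = μ * (Ch.pos (i * M ^ j) / μ) := by simp [hz]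
  have eK : z (M ^ j) = μ * (Ch.pos ((i + 1) * M ^ j) / μ) := by
    simp only [hz]
    rw [show i * M ^ j + M ^ j = (i + 1) * M ^ j by ring]
  have d1 := (hfl (Ch.pos (i * M ^ j))).1
  have d2 := (hfl (Ch.pos ((i + 1) * M ^ j))).2
  rw [← e0] at d1
  rw [← eK] at d2
  have h7 : ℓ ≤ ℓ * M ^ j := Nat.le_mul_of_pos_right _ hMj
  have h8 : M ^ j * ℓ = ℓ * M ^ j := Nat.mul_comm _ _
  omega

theorem shU_eq (A : Along M n) (j e i m : ℕ) :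
    H855.shU A j (j + e) i m = A.US j e (i * M ^ e + m) := by
  unfold H855.shU Along.US
  rw [Finset.sum_Ico_eq_sum_range, Nat.add_sub_cancel_left]
  refine Finset.sum_congr rfl fun l _ => ?_
  rw [Nat.add_sub_cancel_left]

/-- The unit costs of the accounting are the history of the machines. -/
theorem ownU_eq {η : ℝ} (mc : Mach) (ω : Rnd)
    (hI : Inst (boxPar M ℓ μ B J S H) vis hid n η Ch) {s j i t u : ℕ}
    (hj : j + 2 ^ s ≤ n) (hi : i < M ^ (n - (j + 2 ^ s))) (hu : u < M ^ 2 ^ s) :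
    H855.ownU (alongB Ch mc ω hI) H j (j + 2 ^ s) i t u =
      (hist (boxPar M ℓ μ B J S H) ω vis hid (rd (boxPar M ℓ μ B J S H) mc ω vis hid)
        (j + 2 ^ s) i (Ch.lab (j + 2 ^ s) i) s t u
        (Ch.pos ((i * M ^ 2 ^ s + u) * M ^ j) / (ℓ * M ^ j))
        (Ch.pos ((i * M ^ 2 ^ s + u) * M ^ j))
        (Ch.pos ((i * M ^ 2 ^ s + (u + 1)) * M ^ j)) : ℝ) := by
  have h1 := Ch.hist_eq mc ω hI.pt hI.hid_le (fun _ _ => rfl) (fun _ _ _ _ _ => rfl) s j i t u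
    hj hi hu
  have h2 : Ch.lab j (i * M ^ 2 ^ s + u) =
      Ch.pos ((i * M ^ 2 ^ s + u) * M ^ j) / (ℓ * M ^ j) :=
    hI.lab_eq j (i * M ^ 2 ^ s + u) ((Nat.le_add_right _ _).trans hj) (desc_lt hj hi hu)
  unfold H855.ownU
  rw [shU_eq, Nat.add_sub_cancel_left]
  have h3 : Ch.lab j (i * (boxPar M ℓ μ B J S H).M ^ 2 ^ s + u) =
      Ch.pos ((i * M ^ 2 ^ s + u) * M ^ j) / (ℓ * M ^ j) := h2
  rw [h3] at h1
  exact h1.symm

end

/-! ### One class of one top -/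

section

variable {M ℓ μ B J S H n : ℕ} {vis hid : Leaf} {Ch : Chain (boxPar M ℓ μ B J S H) vis hid n}

theorem cdiv_ge {x y : ℕ} (hy : 0 < y) : (x : ℝ) / y ≤ (cdiv x y : ℕ) := by
  have hy' : (0 : ℝ) < y := by exact_mod_cast hy
  rw [div_le_iff₀ hy']
  unfold cdiv
  have h1 := Nat.div_add_mod' (x + y - 1) y
  have h2 := Nat.mod_lt (x + y - 1) hy
  have h3 : x ≤ (x + y - 1) / y * y := by omega
  exact_mod_cast h3

theorem cdiv_le {x y : ℕ} (hy : 0 < y) : (cdiv x y : ℕ) ≤ (x : ℝ) / y + 1 := by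
  have hy' : (0 : ℝ) < y := by exact_mod_cast hy
  have h1 : cdiv x y * y ≤ x + y := by
    unfold cdiv
    have := Nat.div_mul_le_self (x + y - 1) y
    omega
  have h2 : (cdiv x y : ℝ) * y ≤ x + y := by exact_mod_cast h1
  have h3 : (cdiv x y : ℝ) ≤ (x + y) / y := by rwa [le_div_iff₀ hy']
  rwa [add_div, div_self hy'.ne'] at h3

theorem num_cap (x : ℕ) (l : ℕ) :
    10 * ((x : ℝ) * (1 / 2) ^ l) ≤ (cdiv (10 * x) (2 ^ l) : ℕ) := by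
  have h1 : ((10 * x : ℕ) : ℝ) / (2 ^ l : ℕ) ≤ (cdiv (10 * x) (2 ^ l) : ℕ) :=
    cdiv_ge (by positivity)
  refine le_trans (le_of_eq ?_) h1
  push_cast
  rw [one_div, inv_pow]
  field_simp

theorem num_R {K Tu e R l : ℕ} {η : ℝ} (hK : 0 < K) (hTu : 0 < Tu) (hη : η ≤ 1)
    (h12 : 12 * (e : ℝ) ≤ Tu) (hR : 2 ^ (l + 3) ≤ R) :
    (K : ℝ) * Tu * (1 + η) + 12 * (K * e) < R * (cdiv (K * Tu) (2 ^ (l + 1)) : ℕ) := by
  have hKr : (0 : ℝ) < K := by exact_mod_cast hK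
  have hTur : (0 : ℝ) < Tu := by exact_mod_cast hTu
  have h1 : ((K * Tu : ℕ) : ℝ) / (2 ^ (l + 1) : ℕ) ≤ (cdiv (K * Tu) (2 ^ (l + 1)) : ℕ) :=
    cdiv_ge (by positivity)
  have h2 : ((2 ^ (l + 3) : ℕ) : ℝ) ≤ R := by exact_mod_cast hR
  have h3 : (0 : ℝ) < (K : ℝ) * Tu := mul_pos hKr hTur
  have h4 : ((2 ^ (l + 3) : ℕ) : ℝ) * (((K * Tu : ℕ) : ℝ) / (2 ^ (l + 1) : ℕ)) =
      4 * (K * Tu) := by
    push_cast
    rw [pow_add, pow_add]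
    field_simp
    norm_num
  have h5 : ((2 ^ (l + 3) : ℕ) : ℝ) * (((K * Tu : ℕ) : ℝ) / (2 ^ (l + 1) : ℕ)) ≤
      R * (cdiv (K * Tu) (2 ^ (l + 1)) : ℕ) :=
    mul_le_mul h2 h1 (by positivity) (Nat.cast_nonneg _)
  rw [h4] at h5
  have h6 : 12 * ((K : ℝ) * e) ≤ K * Tu := by nlinarith
  nlinarith

/-- The failure event of the machines of scale `s` in the region `(Jv, i)` of the comparison
path. -/
noncomputable def FailB (X : MP) (M ℓ μ B J S H : ℕ) (ω : Rnd) (vis hid : Leaf) {n : ℕ}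
    (Ch : Chain (boxPar M ℓ μ B J S H) vis hid n) (NR : ℕ) (d : ℝ) (s Jv i : ℕ) : Prop :=
  H423.FailTopA (M ^ 2 ^ s) (2 ^ s) (ℓ * M ^ (Jv - 2 ^ s)) (X.g s) (X.NL s) (X.Dl s) (X.R s)
    (X.T s) (X.Sh s) X.C μ B (Ch.lab Jv i)
    (cn (M ^ 2 ^ s) (ℓ * M ^ (Jv - 2 ^ s)) (Ch.lab Jv i) (ℓ * M ^ (Jv - 2 ^ s) / X.g s)
      (Ch.pos (i * M ^ Jv)))
    (cn (M ^ 2 ^ s) (ℓ * M ^ (Jv - 2 ^ s)) (Ch.lab Jv i) (ℓ * M ^ (Jv - 2 ^ s) / X.g s)
      (Ch.pos ((i + 1) * M ^ Jv)))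
    (X.Sm s) NR (2 * (ℓ * M ^ Jv : ℕ)) d
    (hist (boxPar M ℓ μ B J S H) ω vis hid (rd (boxPar M ℓ μ B J S H) (mach X M ℓ μ B) ω vis hid)
      Jv i (Ch.lab Jv i) s) (ω.coin Jv s)

/-- The machine class of a block, in own blocks of the region `(Jv, i)`. -/
noncomputable def actB (X : MP) (M ℓ μ B J S H : ℕ) (ω : Rnd) (vis hid : Leaf) {n : ℕ}
    (Ch : Chain (boxPar M ℓ μ B J S H) vis hid n) (s Jv i off l : ℕ) : ℕ → Prop :=
  actD (M ^ 2 ^ s + 2) (2 * M ^ 2 ^ s * X.g s + 1)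
    (cn (M ^ 2 ^ s) (ℓ * M ^ (Jv - 2 ^ s)) (Ch.lab Jv i) (ℓ * M ^ (Jv - 2 ^ s) / X.g s)
      (Ch.pos (i * M ^ Jv)) * M ^ 2 ^ s)
    (cn (M ^ 2 ^ s) (ℓ * M ^ (Jv - 2 ^ s)) (Ch.lab Jv i) (ℓ * M ^ (Jv - 2 ^ s) / X.g s)
      (Ch.pos ((i + 1) * M ^ Jv)) * M ^ 2 ^ s) (X.Dl s) off
    (cdiv (M ^ 2 ^ s * (ℓ * M ^ (Jv - 2 ^ s))) (2 ^ l))
    (cdiv (M ^ 2 ^ s * (ℓ * M ^ (Jv - 2 ^ s))) (2 ^ (l + 1)))
    (nodeD (M ^ 2 ^ s) (ℓ * M ^ (Jv - 2 ^ s)) (X.g s) μ B (Ch.lab Jv i)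
      (hist (boxPar M ℓ μ B J S H) ω vis hid
        (rd (boxPar M ℓ μ B J S H) (mach X M ℓ μ B) ω vis hid) Jv i (Ch.lab Jv i) s))

noncomputable instance (X : MP) (M ℓ μ B J S H : ℕ) (ω : Rnd) (vis hid : Leaf) {n : ℕ}
    (Ch : Chain (boxPar M ℓ μ B J S H) vis hid n) (s Jv i off l : ℕ) :
    DecidablePred (actB X M ℓ μ B J S H ω vis hid Ch s Jv i off l) := by
  unfold actB; infer_instance

/-- Charge coefficient. -/
noncomputable def LB (K g : ℕ) : ℝ :=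
  ((K + 2 : ℕ) : ℝ) / (K : ℝ) * (22 * Real.log (((2 * K * g + 1) * (2 * K * g + 1) : ℕ) : ℝ))

/-- Error term of one class. -/
noncomputable def capB (K g T Sh D s l : ℕ) (cap Tu η η' d th tau : ℝ) : ℝ :=
  2 ^ s * (((K + 2 : ℕ) : ℝ) / (K : ℝ) *
      (cap / Tu * Real.log (((2 * K * g + 1) * (2 * K * g + 1) : ℕ) : ℝ))) +
    (1 + 2 * tau) / (1 / 2) ^ (l + 1) * (D * (2 * η + (4 * (8 * η') + 2 * (d / K + 4 * η')) / Tu +
      ((K + 2 : ℕ) : ℝ) / (K : ℝ) *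
        (cap / Tu * (4 * th + H782.err1 ((2 * K * g + 1) * (2 * K * g + 1)) T (T / Sh) / th))))

end

section

variable {M n : ℕ} [Nonempty (Fin (M ^ n))] {Sy : Acc.Sys (Fin (M ^ n))}

open Classical in
/-- The machine inequality for one class of one top: `H855.h3b_class` with the concrete machines
inside, `TopOK` = what is used of the certified costs. -/
theorem h3b_mach (A : Along M n) (hM : 0 < M) (R : Acc.Mach Sy) {lo : ℤ} {H : ℕ} {w0 : ℝ}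
    (hw0 : 0 < w0) (hwc : ∀ r, A.w r = w0) (hw : ∀ x, Sy.w x = A.w x)
    (hq : ∀ j x, Sy.q j x = (x : ℕ) / M ^ j)
    (he : ∀ j x b, j ≤ n → Sy.e j x b = A.e lo j x b)
    {ε : ℝ} (hε : 0 ≤ ε)
    (low : ∀ j i b, j ≤ n → i < M ^ (n - j) → A.DE j i - ε * A.W j i ≤ A.C j i b)
    {s a o : ℕ} (hss : s ≤ Sy.smax) (ha : a < Sy.na s)
    (hsa : (a + 1) * 2 ^ s ≤ n) (x : Fin (M ^ n)) {off : ℕ} {j0 : ℤ}
    {K Tu g NL Dl Rn T Sh Cc μ B lb cnt : ℕ} {D : ℕ → ℕ → ℕ → ℕ → ℕ → ℕ}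
    {CR : ℕ → ℕ → ℕ → ℕ} {coin : ℕ → ℕ} {η' : ℕ} {z : ℕ → ℕ} (hK : K = M ^ 2 ^ s)
    (hnet : Net K Tu g μ B lb η' z)
    (hO : TopOK K (2 ^ s) Tu g NL Dl Rn T Sh Cc μ B lb cnt D CR coin)
    (hDl : Dl = Sy.D s) (hlen : 2 ^ s ≤ Dl) (hoff : off < Dl)
    (hj0 : j0 * Dl = lo - A.S ((a + 1) * 2 ^ s) x + H + o + off)
    (hwT : ((M ^ (a * 2 ^ s) : ℕ) : ℝ) * w0 = Tu)
    (hU : ∀ t u, u < K → (D t u (z u / Tu) (z u) (z (u + 1)) : ℝ) =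
      H855.ownU A H (a * 2 ^ s) ((a + 1) * 2 ^ s) ((x : ℕ) / M ^ ((a + 1) * 2 ^ s)) t u)
    (hCR : ∀ t, (CR t (z 0) (z K) : ℝ) =
      H855.ownR A H ((a + 1) * 2 ^ s) ((x : ℕ) / M ^ ((a + 1) * 2 ^ s)) t)
    (hT : 0 < T) (hSh : 0 < Sh) (hXC : Cc = 10) {l : ℕ} (hl : l < NL)
    {cl : ℕ → Prop}
    (hcls : ∀ k, k < Sy.nb s → ∀ j : ℕ, (j : ℤ) = k + j0 → (actD (K + 2) (2 * K * g + 1)
      (cn K Tu lb η' (z 0) * K) (cn K Tu lb η' (z K) * K) Dl off (cdiv (K * Tu) (2 ^ l))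
      (cdiv (K * Tu) (2 ^ (l + 1))) (nodeD K Tu g μ B lb D) j ↔ cl k))
    (hst : ∀ k, k < Sy.nb s → cl k → (off : ℤ) ≤ (k + j0) * Dl)
    (hcN : ∀ k, k < Sy.nb s → cl k → 8 * R.m o s a x k ≤ 8 * (1 / 2) ^ l)
    (hc : ∀ k, k < Sy.nb s → cl k → (1 / 2) ^ (l + 1) ≤ R.m o s a x k)
    (hC : ∀ k, k < Sy.nb s → cl k → ((cdiv (10 * Tu) (2 ^ l) : ℕ) : ℝ) / Tu ≤ 22 * R.m o s a x k)
    {Sm NR : ℕ} {Bd d : ℝ} (hd : 0 ≤ d) (hcnt : cntQ g NL Dl Rn Sm ≤ cnt)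
    (hBd : ∀ t, (CR t (z 0) (z K) : ℝ) ≤ Bd)
    (hF : ¬ H423.FailTopA K (2 ^ s) Tu g NL Dl Rn T Sh Cc μ B lb (cn K Tu lb η' (z 0))
      (cn K Tu lb η' (z K)) Sm NR Bd d D coin)
    (hNR : ((Sy.nb s : ℤ) + j0).toNat * Dl ≤ NR)
    (hrk : ∀ j1, rk (actD (K + 2) (2 * K * g + 1) (cn K Tu lb η' (z 0) * K)
      (cn K Tu lb η' (z K) * K) Dl off (cdiv (K * Tu) (2 ^ l)) (cdiv (K * Tu) (2 ^ (l + 1)))
      (nodeD K Tu g μ B lb D)) j1 < Rn)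
    (hcap : Tu * (8 * (1 / 2) ^ l + ε) + 2 * (4 * η') ≤ ((cdiv (10 * Tu) (2 ^ l) : ℕ) : ℝ))
    {th : ℝ} (hth0 : 0 < th) (hth1 : th ≤ 1 / 2)
    (A₀ : Finset ℕ) (hA₀ : ∀ k ∈ A₀, k < Sy.nb s ∧ cl k) :
    ∑ k ∈ A₀, R.lhs 8 (fun _ _ _ => True) o s a x k ≤
      2 * ∑ k ∈ A₀, ∑ i ∈ range Dl, Sy.G s a x (Sy.b0 o s k + i) +
      2 ^ s * LB K g *
        (∑ k ∈ (range (Sy.nb s)).filter (fun k => k ∉ A₀), Acc.ind (cl k) * R.m o s a x k) +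
      capB K g T Sh Dl s l (cdiv (10 * Tu) (2 ^ l) : ℕ) Tu ε η' d th (R.tau s) := by
  subst hK hDl hXC
  have hK0 : 0 < M ^ 2 ^ s := Nat.pow_pos hM
  have hTu0 : 0 < Tu := by rw [hnet.hTu]; exact Nat.mul_pos hnet.hg hnet.hη
  have hTur : (0 : ℝ) < Tu := by exact_mod_cast hTu0
  have hcap0 : 0 < cdiv (10 * Tu) (2 ^ l) := by
    have h1 : (0 : ℝ) < (cdiv (10 * Tu) (2 ^ l) : ℕ) := by
      exact lt_of_lt_of_le (by positivity) (num_cap Tu l)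
    exact_mod_cast h1
  have hKr : (0 : ℝ) < ((M ^ 2 ^ s : ℕ) : ℝ) := by exact_mod_cast hK0
  haveI : Nonempty (Fin (M ^ 2 ^ s + 2)) := ⟨⟨0, Nat.succ_pos _⟩⟩
  haveI : Nonempty (Fin (2 * M ^ 2 ^ s * g + 1)) := ⟨⟨0, Nat.succ_pos _⟩⟩
  have ha0 : cn (M ^ 2 ^ s) Tu lb η' (z 0) ≤ g := hnet.cn_zero_le
  have hb0 : cn (M ^ 2 ^ s) Tu lb η' (z (M ^ 2 ^ s)) ≤ 2 * g := hnet.cn_K_le
  have hDl0 : 0 < Sy.D s := lt_of_le_of_lt (Nat.zero_le _) hoff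
  set em : Fin (M ^ 2 ^ s) → Fin (M ^ 2 ^ s + 2) := fun u => ⟨u + 1, by omega⟩ with hem
  have hemi : Function.Injective em := fun u v huv => by
    have := congrArg Fin.val huv
    simp only [hem] at this
    exact Fin.ext (by omega)
  have hrem : ∀ u, rr (M ^ 2 ^ s) η' (em u) = 4 * η' := fun u => by
    unfold rr
    have := u.2
    rw [if_pos]
    simp only [hem]
    exact ⟨by omega, by omega⟩
  have hends : ∀ t (i' : Fin (M ^ 2 ^ s + 2)), (∀ u, em u ≠ i') →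
      Dr (M ^ 2 ^ s + 2) (2 * M ^ 2 ^ s * g + 1) (nodeD (M ^ 2 ^ s) Tu g μ B lb D) t i'
        (pp hnet i') ≤ rr (M ^ 2 ^ s) η' i' := by
    intro t i' hi'
    have hi2 := i'.2
    have hi3 : (i' : ℕ) = 0 ∨ (i' : ℕ) = M ^ 2 ^ s + 1 := by
      by_contra hc
      push Not at hc
      refine hi' ⟨i' - 1, by omega⟩ (Fin.ext ?_)
      simp only [hem]
      omega
    show (nodeD (M ^ 2 ^ s) Tu g μ B lb D t i' (FF (M ^ 2 ^ s) Tu lb η' z i')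
      (FF (M ^ 2 ^ s) Tu lb η' z (i' + 1)) : ℝ) ≤ rr (M ^ 2 ^ s) η' i'
    unfold rr
    rcases hi3 with h1 | h1
    · rw [h1, if_neg (by omega)]
      exact_mod_cast first_close hnet t
    · rw [h1, if_neg (by omega)]
      exact_mod_cast last_close hnet t
  have key := H855.h3b_class A hM R (lo := lo) (H := (H : ℤ)) (w0 := w0) hw0 hwc hw hq he hε low
    (s := s) (a := a) (o := o) hss ha hsa hlen x (off := off) (j0 := j0) hj0 (C7 := 8)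
    (good := fun _ _ _ => True) (cl := cl)
    (actM := actD (M ^ 2 ^ s + 2) (2 * M ^ 2 ^ s * g + 1)
      (cn (M ^ 2 ^ s) Tu lb η' (z 0) * M ^ 2 ^ s)
      (cn (M ^ 2 ^ s) Tu lb η' (z (M ^ 2 ^ s)) * M ^ 2 ^ s) (Sy.D s) off
      (cdiv (M ^ 2 ^ s * Tu) (2 ^ l)) (cdiv (M ^ 2 ^ s * Tu) (2 ^ (l + 1)))
      (nodeD (M ^ 2 ^ s) Tu g μ B lb D))
    (cN := 8 * (1 / 2) ^ l) (cap := (cdiv (10 * Tu) (2 ^ l) : ℕ)) (cmin := (1 / 2) ^ (l + 1))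
    (th := th) (Cc := 22) hcls hst hcN (by positivity) hc
    (fun k hk hck => by
      rw [hwT]
      exact hC k hk hck)
    (em := em) hemi (PP := H763.paths (M ^ 2 ^ s + 2) (2 * M ^ 2 ^ s * g + 1)
      (cn (M ^ 2 ^ s) Tu lb η' (z 0) * M ^ 2 ^ s)
      (cn (M ^ 2 ^ s) Tu lb η' (z (M ^ 2 ^ s)) * M ^ 2 ^ s))
    (D := Dr (M ^ 2 ^ s + 2) (2 * M ^ 2 ^ s * g + 1) (nodeD (M ^ 2 ^ s) Tu g μ B lb D))
    (fun t i e => by
      unfold Dr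
      exact_mod_cast nodeD_anti hO.anti t i e.1 e.2)
    (p := pp hnet) (pp_mem hnet) (r := fun i => rr (M ^ 2 ^ s) η' i) (fun i => rr_nonneg _ _ _)
    (rb := 8 * η') (d := d / ((M ^ 2 ^ s : ℕ) : ℝ) + 4 * η') (by positivity) (by rw [sum_rr])
    (fun t u => by
      rw [hrem, ← hU t u u.2]
      exact unit_close hnet hO t u.2)
    hends (by exact_mod_cast hcap0)
    (fun u => by
      rw [hrem, hwT]
      exact hcap)
    (Sc := Sh) (T := T) hSh hT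
    (pk := fun j1 t => pk (M ^ 2 ^ s) (2 ^ s) Tu g NL (Sy.D s) Rn T Sh 10 μ B
      (encQ g NL (Sy.D s) Rn (cn (M ^ 2 ^ s) Tu lb η' (z 0))
        (cn (M ^ 2 ^ s) Tu lb η' (z (M ^ 2 ^ s))) l off
        (rk (actD (M ^ 2 ^ s + 2) (2 * M ^ 2 ^ s * g + 1)
          (cn (M ^ 2 ^ s) Tu lb η' (z 0) * M ^ 2 ^ s)
          (cn (M ^ 2 ^ s) Tu lb η' (z (M ^ 2 ^ s)) * M ^ 2 ^ s) (Sy.D s) off
          (cdiv (M ^ 2 ^ s * Tu) (2 ^ l)) (cdiv (M ^ 2 ^ s * Tu) (2 ^ (l + 1)))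
          (nodeD (M ^ 2 ^ s) Tu g μ B lb D)) j1) 0) t lb D)
    (fun j1 t _ _ _ _ _ hj _ => by
      obtain ⟨f1, f2, f3, f4, f5, -⟩ := dec_enc (sm := 0) ha0 hb0 hl hoff (hrk j1)
      exact pk_greedy' f1 f2 f3 f4 hO.anti hSh hcap0 (Nat.two_pow_pos s) hDl0 hj f5)
    (fun j1 t hb1 _ hAt _ _ _ _ => by
      have ht : t < NR := by
        have h1 : t + off < ((Sy.nb s : ℤ) + j0).toNat * Sy.D s :=
          (Nat.div_lt_iff_lt_mul hDl0).1 hb1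
        omega
      have h1 := cert_of hnet hO hcnt hT hd hBd hF hl hoff (hrk j1) ht hAt (hrk _)
      rw [← hCR t]
      refine h1.trans (le_of_eq ?_)
      congr 1
      field_simp)
    hth0 hth1 A₀ hA₀
  rw [hwT] at key
  simp only [Fintype.card_fin, Fintype.card_prod] at key
  unfold LB capB
  exact key

end

section

variable {M ℓ μ B J S H n : ℕ} {vis hid : Leaf} {Ch : Chain (boxPar M ℓ μ B J S H) vis hid n}
variable [Nonempty (Fin (M ^ n))]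

open Classical in
/-- **The machine inequality for one class of one top**, for the machines of the additive
geometry. `hcls`, `hst`, `hC` = the class of the machines is the class of the accounting. -/
theorem cls_box (X : MP) (ω : Rnd) {η : ℝ} {smax : ℕ}
    (hI : Inst (boxPar M ℓ μ B J S H) vis hid n η Ch) (N : BoxNum M ℓ μ smax X.g)
    (hη : 0 ≤ η) (hw : ∀ i, Ch.w i = ℓ) (hμℓ : μ ∣ ℓ) (h4μ : 4 * μ ≤ ℓ)
    (lo : ℤ) (NB D0 : ℕ) (qf : ℕ → ℕ) (hD0 : 0 < D0) (hn : 2 ^ smax ∣ n)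
    (hq : ∀ j i, j < n → i < M ^ (n - j) →
      (alongB Ch (mach X M ℓ μ B) ω hI).sft j i ≤ qf j)
    (hfin : (∑ l ∈ range n, (qf l : ℤ)) ≤ lo + (NB * (16 ^ smax * D0) : ℕ))
    {s a : ℕ} (hs1 : 1 ≤ s) (hs : s ≤ smax) (hsS : s < S) (ha : a < n / 2 ^ s) (o : ℕ)
    (x : Fin (M ^ n)) {off : ℕ} (hoff : off < X.Dl s) {j0 : ℤ}
    (hDl : X.Dl s = 16 ^ s * D0) (hlen : 2 ^ s ≤ X.Dl s)
    (hj0 : j0 * (X.Dl s : ℕ) = lo -
      (alongB Ch (mach X M ℓ μ B) ω hI).S (a * 2 ^ s + 2 ^ s) x + H + o + off)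
    (hT : 0 < X.T s) (hSh : 0 < X.Sh s) (hXC : X.C = 10) {l : ℕ} (hl : l < X.NL s)
    (hcls : ∀ k, k < NB * 16 ^ (smax - s) → ∀ j : ℕ, (j : ℤ) = k + j0 →
      (actB X M ℓ μ B J S H ω vis hid Ch s (a * 2 ^ s + 2 ^ s)
        ((x : ℕ) / M ^ (a * 2 ^ s + 2 ^ s)) off l j ↔
      H295.clsR ((zfamB (mach X M ℓ μ B) ω hI N hη hw).mach N.hM lo NB D0 qf hD0 hn
        hq hfin) (fun _ _ _ => 1) o s a l x k))
    (hst : ∀ k, k < NB * 16 ^ (smax - s) →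
      H295.clsR ((zfamB (mach X M ℓ μ B) ω hI N hη hw).mach N.hM lo NB D0 qf hD0 hn
        hq hfin) (fun _ _ _ => 1) o s a l x k → (off : ℤ) ≤ (k + j0) * (X.Dl s : ℕ))
    (hC : ∀ k, k < NB * 16 ^ (smax - s) →
      H295.clsR ((zfamB (mach X M ℓ μ B) ω hI N hη hw).mach N.hM lo NB D0 qf hD0 hn
        hq hfin) (fun _ _ _ => 1) o s a l x k →
      ((cdiv (10 * (ℓ * M ^ (a * 2 ^ s))) (2 ^ l) : ℕ) : ℝ) / ((ℓ * M ^ (a * 2 ^ s) : ℕ) : ℝ) ≤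
        22 * ((zfamB (mach X M ℓ μ B) ω hI N hη hw).mach N.hM lo NB D0 qf hD0 hn
        hq hfin).m o s a x k)
    {NR : ℕ} {d : ℝ} (hd : 0 ≤ d)
    (hF : ¬ FailB X M ℓ μ B J S H ω vis hid Ch NR d s (a * 2 ^ s + 2 ^ s)
      ((x : ℕ) / M ^ (a * 2 ^ s + 2 ^ s)))
    (hNR : (((NB * 16 ^ (smax - s) : ℕ) : ℤ) + j0).toNat * X.Dl s ≤ NR)
    (hη2 : η ≤ (1 / 2) ^ l) (hg : 12 * 2 ^ l ≤ X.g s) (hR : 2 ^ (l + 3) ≤ X.R s)
    {th : ℝ} (hth0 : 0 < th) (hth1 : th ≤ 1 / 2)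
    (A₀ : Finset ℕ) (hA₀ : ∀ k ∈ A₀, k < NB * 16 ^ (smax - s) ∧
      H295.clsR ((zfamB (mach X M ℓ μ B) ω hI N hη hw).mach N.hM lo NB D0 qf hD0 hn
        hq hfin) (fun _ _ _ => 1) o s a l x k) :
    ∑ k ∈ A₀, ((zfamB (mach X M ℓ μ B) ω hI N hη hw).mach N.hM lo NB D0 qf hD0 hn
        hq hfin).lhs 8 (fun _ _ _ => True) o s a x k ≤
      2 * ∑ k ∈ A₀, ∑ i ∈ range (X.Dl s),
        ((alongB Ch (mach X M ℓ μ B) ω hI).cut N.hM lo smax NB D0 qf hD0 hn hq hfin).G s a x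
          (((alongB Ch (mach X M ℓ μ B) ω hI).cut N.hM lo smax NB D0 qf hD0 hn hq hfin).b0
            o s k + i) +
      2 ^ s * LB (M ^ 2 ^ s) (X.g s) *
        (∑ k ∈ (range (NB * 16 ^ (smax - s))).filter (fun k => k ∉ A₀),
          Acc.ind (H295.clsR ((zfamB (mach X M ℓ μ B) ω hI N hη hw).mach N.hM lo NB D0
            qf hD0 hn hq hfin) (fun _ _ _ => 1) o s a l x k) *
          ((zfamB (mach X M ℓ μ B) ω hI N hη hw).mach N.hM lo NB D0 qf hD0 hn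
            hq hfin).m o s a x k) +
      capB (M ^ 2 ^ s) (X.g s) (X.T s) (X.Sh s) (X.Dl s) s l
        (cdiv (10 * (ℓ * M ^ (a * 2 ^ s))) (2 ^ l) : ℕ) (ℓ * M ^ (a * 2 ^ s) : ℕ) η
        (ℓ * M ^ (a * 2 ^ s) / X.g s : ℕ) d th (12 / X.g s + η) := by
  have hM : 0 < M := N.hM
  have hJn : a * 2 ^ s + 2 ^ s ≤ n := Along.top_le ha
  have hJe : (a + 1) * 2 ^ s = a * 2 ^ s + 2 ^ s := by ring
  have hil : (x : ℕ) / M ^ (a * 2 ^ s + 2 ^ s) < M ^ (n - (a * 2 ^ s + 2 ^ s)) :=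
    Along.quot_lt hM hJn x
  have hnet := (boxGeo hI).net N hs hJn hil
  have hE := instEd hI
  have hle := instHidLe hI
  have hJ0 : 0 < a * 2 ^ s + 2 ^ s := by positivity
  have hJd : 2 ^ s ∣ a * 2 ^ s + 2 ^ s := ⟨a + 1, by ring⟩
  set i := (x : ℕ) / M ^ (a * 2 ^ s + 2 ^ s) with hi
  have hO := topOK (J := J) (S := S) (H := H) (μ := μ) (B := B) (ℓ := ℓ) X (ω := ω) hM hE hle
    (i := i) (a := Ch.lab (a * 2 ^ s + 2 ^ s) i) hJ0 hsS hJd hT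
  rw [Nat.add_sub_cancel] at hO
  set mc := mach X M ℓ μ B with hmc
  set A := alongB Ch mc ω hI with hA
  have Z := zfamB mc ω hI N hη hw
  have e0 : Ch.pos ((i * M ^ 2 ^ s + 0) * M ^ (a * 2 ^ s)) =
      Ch.pos (i * M ^ (a * 2 ^ s + 2 ^ s)) := by
    rw [pow_add]; congr 1; ring
  have eK : Ch.pos ((i * M ^ 2 ^ s + M ^ 2 ^ s) * M ^ (a * 2 ^ s)) =
      Ch.pos ((i + 1) * M ^ (a * 2 ^ s + 2 ^ s)) := by
    rw [pow_add]; congr 1; ring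
  -- abbreviations
  set K := M ^ 2 ^ s with hK
  set Tu := ℓ * M ^ (a * 2 ^ s) with hTu
  set g := X.g s with hgdef
  set η' := Tu / g with hη'
  set lb := Ch.lab (a * 2 ^ s + 2 ^ s) i with hlb
  set z : ℕ → ℕ := fun u => Ch.pos ((i * K + u) * M ^ (a * 2 ^ s)) with hz
  set D := hist (boxPar M ℓ μ B J S H) ω vis hid (rd (boxPar M ℓ μ B J S H) mc ω vis hid)
    (a * 2 ^ s + 2 ^ s) i lb s with hD
  have hz0 : z 0 = Ch.pos (i * M ^ (a * 2 ^ s + 2 ^ s)) := e0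
  have hzK : z K = Ch.pos ((i + 1) * M ^ (a * 2 ^ s + 2 ^ s)) := eK
  have hDs : (A.cut N.hM lo smax NB D0 qf hD0 hn hq hfin).D s = X.Dl s := hDl.symm
  have hK0 : 0 < K := Nat.pow_pos hM
  have hKr : (0 : ℝ) < K := by exact_mod_cast hK0
  have hTu0 : 0 < Tu := Nat.mul_pos N.hℓ (Nat.pow_pos hM)
  have hTur : (0 : ℝ) < Tu := by exact_mod_cast hTu0
  have hwT : ((M ^ (a * 2 ^ s) : ℕ) : ℝ) * (ℓ : ℝ) = Tu := by
    rw [hTu]; push_cast; ring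
  have hη'r : (0 : ℝ) < η' := by exact_mod_cast hnet.hη
  have hgη : (12 : ℝ) * 2 ^ l * η' ≤ Tu := by
    have h1 : 12 * 2 ^ l * η' ≤ Tu := by
      have h2 : g * η' = Tu := hnet.hTu.symm
      rw [← h2]
      exact Nat.mul_le_mul_right _ hg
    exact_mod_cast h1
  have h2l : (1 : ℝ) ≤ 2 ^ l := one_le_pow₀ (by norm_num)
  have hhalf : (2 : ℝ) ^ l * (1 / 2) ^ l = 1 := by rw [← mul_pow]; norm_num
  have hhl0 : (0 : ℝ) < (1 / 2) ^ l := by positivity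
  have hhl1 : ((1 : ℝ) / 2) ^ l ≤ 1 := pow_le_one₀ (by norm_num) (by norm_num)
  have h12 : 12 * (η' : ℝ) ≤ Tu := by nlinarith
  have h12l : 12 * (η' : ℝ) ≤ Tu * (1 / 2) ^ l := by
    have h1 := mul_le_mul_of_nonneg_right hgη hhl0.le
    calc 12 * (η' : ℝ) = 12 * 2 ^ l * η' * (1 / 2) ^ l := by
          rw [show 12 * (2 : ℝ) ^ l * η' * (1 / 2) ^ l = 12 * η' * (2 ^ l * (1 / 2) ^ l) by ring,
            hhalf, mul_one]
      _ ≤ _ := h1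
  have hU : ∀ (t u : ℕ), u < K → (D t u (z u / Tu) (z u) (z (u + 1)) : ℝ) =
      H855.ownU A H (a * 2 ^ s) (a * 2 ^ s + 2 ^ s) i t u := fun t u hu =>
    (ownU_eq mc ω hI hJn hil hu).symm
  have hWu : ∀ j v, A.W j v = (ℓ : ℝ) * (M : ℝ) ^ j := fun j v => W_const (A := A) hw j v
  -- bounds along the comparison path
  have hvl : ∀ u, u < K → i * K + u < M ^ (n - a * 2 ^ s) := fun u hu => desc_lt hJn hil hu
  have hupU : ∀ u : Fin K, (D 0 u (z u / Tu) (z u) (z (u + 1)) : ℝ) ≤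
      A.DE (a * 2 ^ s) (i * K + u) + Tu := by
    intro u
    rw [hU 0 u u.2]
    unfold H855.ownU
    rw [Nat.add_sub_cancel_left]
    refine (A.C_le (a * 2 ^ s) _ _ ((Nat.le_add_right _ _).trans hJn) (hvl u u.2)).trans ?_
    rw [hWu, hTu]
    push_cast
    exact le_rfl
  have hsumDE : ∑ u : Fin K, A.DE (a * 2 ^ s) (i * K + u) = A.DE (a * 2 ^ s + 2 ^ s) i := by
    rw [A.DE_units, Finset.sum_range]
  have hlowR : ∀ t : ℕ, ∑ u : Fin K, A.DE (a * 2 ^ s) (i * K + u) - η * (K * (Tu : ℝ)) ≤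
      (cR (boxPar M ℓ μ B J S H) mc ω vis hid (a * 2 ^ s + 2 ^ s) i lb ((t : ℤ) - H) (z 0) (z K) :
        ℝ) := by
    intro t
    have h1 := Z.low (a * 2 ^ s + 2 ^ s) i ((t : ℤ) - H) hJn hil
    rw [hWu] at h1
    rw [hsumDE, hz0, hzK]
    have h2 : (K : ℝ) * (Tu : ℝ) = (ℓ : ℝ) * (M : ℝ) ^ (a * 2 ^ s + 2 ^ s) := by
      rw [hK, hTu, pow_add]; push_cast; ring
    rw [h2]
    exact h1
  have hBd : ∀ t : ℕ, (cR (boxPar M ℓ μ B J S H) mc ω vis hid (a * 2 ^ s + 2 ^ s) i lb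
      ((t : ℤ) - H) (z 0) (z K) : ℝ) ≤ 2 * (ℓ * M ^ (a * 2 ^ s + 2 ^ s) : ℕ) := by
    intro t
    rw [hz0, hzK]
    exact_mod_cast cR_le_two mc ω hI hM N.hμ hμℓ h4μ hJn hil lb ((t : ℤ) - H)
  have hcnt : cntQ g (X.NL s) (X.Dl s) (X.R s) (X.Sm s) ≤ X.cnt s := by
    unfold MP.cnt
    rw [if_neg (by omega)]
  have hF' : ¬ H423.FailTopA K (2 ^ s) Tu g (X.NL s) (X.Dl s) (X.R s) (X.T s) (X.Sh s) X.C μ B lb
      (cn K Tu lb η' (z 0)) (cn K Tu lb η' (z K)) (X.Sm s) NR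
      (2 * (ℓ * M ^ (a * 2 ^ s + 2 ^ s) : ℕ)) d D (ω.coin (a * 2 ^ s + 2 ^ s) s) := by
    rw [hz0, hzK]
    unfold FailB at hF
    rw [Nat.add_sub_cancel] at hF
    exact hF
  have hact : actB X M ℓ μ B J S H ω vis hid Ch s (a * 2 ^ s + 2 ^ s) i off l =
      actD (K + 2) (2 * K * g + 1) (cn K Tu lb η' (z 0) * K) (cn K Tu lb η' (z K) * K) (X.Dl s)
        off (cdiv (K * Tu) (2 ^ l)) (cdiv (K * Tu) (2 ^ (l + 1))) (nodeD K Tu g μ B lb D) := by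
    rw [hz0, hzK]
    unfold actB
    rw [Nat.add_sub_cancel]
  have hrk : ∀ j1, rk (actD (K + 2) (2 * K * g + 1) (cn K Tu lb η' (z 0) * K)
      (cn K Tu lb η' (z K) * K) (X.Dl s) off (cdiv (K * Tu) (2 ^ l)) (cdiv (K * Tu) (2 ^ (l + 1)))
      (nodeD K Tu g μ B lb D)) j1 < X.R s := fun j1 =>
    rk_lt_R hnet hO (DU := fun u => A.DE (a * 2 ^ s) (i * K + u)) (w := Tu) (ε := η)
      hlowR hupU (num_R hK0 hTu0 (hη2.trans hhl1) h12 hR) j1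
  rw [hact] at hcls
  exact h3b_mach A hM (Z.mach N.hM lo NB D0 qf hD0 hn hq hfin) (lo := lo)
    (H := H) (w0 := (ℓ : ℝ)) (by exact_mod_cast N.hℓ) (fun r => hw r) (fun _ => rfl)
    (fun _ _ => rfl) (fun j x b hj => A.cut_e hj x b) hη Z.low (s := s) (a := a) (o := o) hs ha
    (by rw [hJe]; exact hJn) x (off := off) (j0 := j0) (K := K) (Tu := Tu) (g := g)
    (NL := X.NL s) (Dl := X.Dl s) (Rn := X.R s) (T := X.T s) (Sh := X.Sh s) (Cc := X.C)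
    (μ := μ) (B := B) (lb := lb) (cnt := X.cnt s) (D := D) (η' := η') (z := z) rfl hnet hO
    hDl hlen hoff (by rw [hJe]; exact hj0) hwT
    (fun t u hu => by rw [hJe]; exact hU t u hu)
    (fun t => by
      rw [hJe]
      show (cR (boxPar M ℓ μ B J S H) mc ω vis hid (a * 2 ^ s + 2 ^ s) i lb
        ((t : ℤ) - H) (z 0) (z K) : ℝ) = _
      rw [hz0, hzK]
      rfl)
    hT hSh hXC hl hcls hst
    (fun k _ hk => by
      have h1 := hk.2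
      rw [one_mul] at h1
      linarith)
    (fun k _ hk => by
      have h1 := hk.1
      rwa [one_mul] at h1)
    hC hd hcnt hBd hF' hNR hrk
    (by
      have h1 := num_cap Tu l
      have h3 : (Tu : ℝ) * η ≤ Tu * (1 / 2) ^ l := mul_le_mul_of_nonneg_left hη2 hTur.le
      nlinarith)
    hth0 hth1 A₀ hA₀

end

end Vale.Agent.P315.H132
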