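import Vale.Agent.P315.H330.Atoms

/-!
P315, row C3 (helper132): sampled lanes in the finite product space of seeds.

`I` = the coordinates (seed words), `K` = the values of one seed word, `I → K` = all seeds with the
uniform law, `av` = the average over a finite type (`H330.av`).
-/

set_option autoImplicit false

open Finset

namespace Vale.Agent.P315.H132

open H330 (av av_const av_add av_sub av_mul av_mono av_nonneg av_sum av_prod)

noncomputable section

variable {I K : Type*} [Fintype I] [DecidableEq I] [Fintype K]

/-- The seed which is `a` on `A` and `w` outside. -/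
def mix (A : Finset I) (a w : I → K) : I → K := fun i => if i ∈ A then a i else w i

omit [Fintype I] [Fintype K] in
lemma mix_mem {A : Finset I} {a w : I → K} {i : I} (h : i ∈ A) : mix A a w i = a i := by
  simp [mix, h]

omit [Fintype I] [Fintype K] in
lemma mix_not_mem {A : Finset I} {a w : I → K} {i : I} (h : i ∉ A) : mix A a w i = w i := by
  simp [mix, h]

omit [Fintype I] [Fintype K] in
lemma mix_mix (A : Finset I) (a w : I → K) : mix A (mix A w a) (mix A a w) = w := by
  funext i
  by_cases h : i ∈ A <;> simp [mix, h]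

/-- Exchange of the coordinates in `A`. -/
def swapA (A : Finset I) : (I → K) × (I → K) ≃ (I → K) × (I → K) where
  toFun x := (mix A x.2 x.1, mix A x.1 x.2)
  invFun x := (mix A x.2 x.1, mix A x.1 x.2)
  left_inv x := by
    refine Prod.ext ?_ ?_
    · exact mix_mix A x.2 x.1
    · exact mix_mix A x.1 x.2
  right_inv x := by
    refine Prod.ext ?_ ?_
    · exact mix_mix A x.2 x.1
    · exact mix_mix A x.1 x.2

/-- Resampling the coordinates in `A` does not change the average. -/
theorem av_mix [Nonempty K] (A : Finset I) (F : (I → K) → ℝ) :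
    av (fun w => av (fun a => F (mix A a w))) = av F := by
  have h1 : ∑ x : (I → K) × (I → K), F (mix A x.2 x.1) = ∑ x : (I → K) × (I → K), F x.1 :=
    Fintype.sum_equiv (swapA A) _ _ (fun x => rfl)
  rw [Fintype.sum_prod_type, Fintype.sum_prod_type] at h1
  simp only [Finset.sum_const, Finset.card_univ, nsmul_eq_mul] at h1
  have hc : (Fintype.card (I → K) : ℝ) ≠ 0 := by
    exact_mod_cast (Fintype.card_pos (α := I → K)).ne'
  unfold av
  rw [← Finset.sum_div, h1, ← Finset.mul_sum]
  field_simp

/-- indicator of a proposition -/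
def ind (p : Prop) : ℝ := by classical exact if p then 1 else 0

lemma ind_nonneg (p : Prop) : 0 ≤ ind p := by unfold ind; split_ifs <;> norm_num

lemma ind_le_one (p : Prop) : ind p ≤ 1 := by unfold ind; split_ifs <;> norm_num

lemma ind_true {p : Prop} (h : p) : ind p = 1 := by unfold ind; simp [h]

lemma ind_false {p : Prop} (h : ¬ p) : ind p = 0 := by unfold ind; simp [h]

lemma ind_mono {p q : Prop} (h : p → q) : ind p ≤ ind q := by
  by_cases hp : p
  · rw [ind_true hp, ind_true (h hp)]
  · rw [ind_false hp]; exact ind_nonneg q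

lemma ind_exists_le {ι : Type*} (s : Finset ι) (p : ι → Prop) :
    ind (∃ k ∈ s, p k) ≤ ∑ k ∈ s, ind (p k) := by
  by_cases h : ∃ k ∈ s, p k
  · obtain ⟨k, hk, hp⟩ := h
    rw [ind_true ⟨k, hk, hp⟩, ← ind_true hp]
    exact Finset.single_le_sum (f := fun k => ind (p k)) (fun i _ => ind_nonneg _) hk
  · rw [ind_false h]
    exact Finset.sum_nonneg fun i _ => ind_nonneg _

lemma ind_forall_eq {ι : Type*} (s : Finset ι) (p : ι → Prop) :
    ind (∀ k ∈ s, p k) = ∏ k ∈ s, ind (p k) := by
  by_cases h : ∀ k ∈ s, p k
  · rw [ind_true h]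
    exact (Finset.prod_eq_one fun k hk => ind_true (h k hk)).symm
  · rw [ind_false h]
    push Not at h
    obtain ⟨k, hk, hp⟩ := h
    exact (Finset.prod_eq_zero hk (ind_false hp)).symm

/-- **Conditional bound.** If resampling the coordinates in `A` makes `Bad` happen with
probability at most `p` and `X` does not depend on these coordinates, then
`E (X ; Bad) ≤ p E X`. -/
theorem cond_bound [Nonempty K] (A : Finset I) {X : (I → K) → ℝ} (hX0 : ∀ w, 0 ≤ X w)
    (hX : ∀ a w, X (mix A a w) = X w) {Bad : (I → K) → Prop} {p : ℝ}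
    (hp : ∀ w, av (fun a => ind (Bad (mix A a w))) ≤ p) :
    av (fun w => X w * ind (Bad w)) ≤ p * av X := by
  rw [← av_mix A (fun w => X w * ind (Bad w)), ← av_mul]
  refine av_mono fun w => ?_
  have h1 : av (fun a => X (mix A a w) * ind (Bad (mix A a w))) =
      X w * av (fun a => ind (Bad (mix A a w))) := by
    rw [← av_mul]
    refine congrArg av (funext fun a => ?_)
    rw [hX]
  rw [h1, mul_comm p]
  exact mul_le_mul_of_nonneg_left (hp w) (hX0 w)

omit [Fintype I] [Fintype K] in
lemma mix_congr {β : Type*} {A : Finset I} {F : (I → K) → β} (h : DependsOn F ((A : Set I)ᶜ))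
    (a w : I → K) : F (mix A a w) = F w := by
  refine h fun i hi => ?_
  exact mix_not_mem (by simpa using hi)

/-- Markov for one lane: the fraction of the values of the coin whose lane costs more than
`V + d`, `V` the mean cost. -/
theorem markov [Nonempty K] {cost : K → ℝ} (h0 : ∀ x, 0 ≤ cost x) {B d : ℝ} (hB : av cost ≤ B)
    (hd : 0 < d) : av (fun x => ind (av cost + d < cost x)) ≤ B / (B + d) := by
  have hV : 0 ≤ av cost := av_nonneg h0
  have hB0 : 0 ≤ B := hV.trans hB
  have h1 : (av cost + d) * av (fun x => ind (av cost + d < cost x)) ≤ av cost := by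
    rw [← av_mul]
    refine av_mono fun x => ?_
    by_cases h : av cost + d < cost x
    · rw [ind_true h, mul_one]; exact h.le
    · rw [ind_false h, mul_zero]; exact h0 x
  have h2 : av (fun x => ind (av cost + d < cost x)) ≤ av cost / (av cost + d) := by
    rw [le_div_iff₀ (by linarith)]
    linarith
  refine h2.trans ?_
  rw [div_le_div_iff₀ (by linarith) (by linarith)]
  nlinarith

/-- All of the `S` samples of one round are bad. `c j` = coordinate of the `j`-th sample. -/
theorem all_bad [Nonempty K] {S : ℕ} (A : Finset I) (c : Fin S → I) (hc : Function.Injective c)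
    (hcA : ∀ j, c j ∈ A) (Bd : K → Prop) {r : ℝ} (hr : av (fun x => ind (Bd x)) ≤ r)
    (w : I → K) : av (fun a : I → K => ind (∀ j, Bd (mix A a w (c j)))) ≤ r ^ S := by
  have hr0 : 0 ≤ av (fun x => ind (Bd x)) := av_nonneg fun x => ind_nonneg _
  have e1 : ∀ a : I → K, ind (∀ j, Bd (mix A a w (c j))) =
      ∏ i, (if i ∈ univ.image c then ind (Bd (a i)) else 1) := by
    intro a
    have h1 : ∀ j, mix A a w (c j) = a (c j) := fun j => mix_mem (hcA j)
    simp only [h1]
    have h2 : (∀ j, Bd (a (c j))) ↔ ∀ i ∈ univ.image c, Bd (a i) := by simp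
    rw [show ind (∀ j, Bd (a (c j))) = ind (∀ i ∈ univ.image c, Bd (a i)) by rw [h2],
      ind_forall_eq, Finset.prod_ite_mem, Finset.univ_inter]
  simp only [e1]
  have e2 := av_prod (I := I) (K := K)
    (fun i x => if i ∈ univ.image c then ind (Bd x) else 1)
  rw [e2]
  have e3 : ∀ i, av (fun x : K => if i ∈ univ.image c then ind (Bd x) else (1 : ℝ)) =
      if i ∈ univ.image c then av (fun x => ind (Bd x)) else 1 := by
    intro i
    by_cases h : i ∈ univ.image c
    · simp only [h, if_true]
    · simp only [h, if_false]; exact av_const 1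
  simp only [e3]
  rw [Finset.prod_ite_mem, Finset.univ_inter, Finset.prod_const,
    Finset.card_image_of_injective _ hc, Finset.card_univ, Fintype.card_fin]
  exact pow_le_pow_left₀ hr0 hr S

/-- **Sampled lanes.** `A` = the own coin coordinates of a machine; everything else (costs of the
lanes, set of the rounds that matter, weight `X`) does not depend on them. In round `k` the `S`
samples are read at the coordinates `c k j`. The event that in one of the rounds that matter all
samples cost more than mean plus `d` has small probability, also conditionally. -/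
theorem lanes_fail [Nonempty K] {S m : ℕ} (A : Finset I) (c : ℕ → Fin S → I)
    (hc : ∀ k, Function.Injective (c k)) (hcA : ∀ k j, c k j ∈ A)
    {cost : (I → K) → ℕ → K → ℝ} (hcost : ∀ a w, cost (mix A a w) = cost w)
    (h0 : ∀ w k x, 0 ≤ cost w k x) {B d : ℝ} (hB : ∀ w k, av (cost w k) ≤ B) (hd : 0 < d)
    (rounds : (I → K) → Finset ℕ) (hrounds : ∀ a w, rounds (mix A a w) = rounds w)
    (hm : ∀ w, (rounds w).card ≤ m)
    {X : (I → K) → ℝ} (hX0 : ∀ w, 0 ≤ X w) (hX : ∀ a w, X (mix A a w) = X w) :
    av (fun w => X w * ind (∃ k ∈ rounds w, ∀ j, av (cost w k) + d < cost w k (w (c k j)))) ≤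
      (m * (B / (B + d)) ^ S) * av X := by
  refine cond_bound A hX0 hX fun w => ?_
  have hB0 : 0 ≤ B := (av_nonneg (h0 w 0)).trans (hB w 0)
  have hr0 : 0 ≤ B / (B + d) := by positivity
  have e1 : ∀ a, ind (∃ k ∈ rounds (mix A a w), ∀ j, av (cost (mix A a w) k) + d <
      cost (mix A a w) k (mix A a w (c k j))) ≤
      ∑ k ∈ rounds w, ind (∀ j, av (cost w k) + d < cost w k (mix A a w (c k j))) := by
    intro a
    rw [hrounds, hcost]
    exact ind_exists_le _ _
  refine (av_mono e1).trans ?_
  rw [av_sum]
  have e2 : ∀ k ∈ rounds w, av (fun a : I → K => ind (∀ j, av (cost w k) + d <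
      cost w k (mix A a w (c k j)))) ≤ (B / (B + d)) ^ S := fun k _ =>
    all_bad A (c k) (hc k) (hcA k) (fun x => av (cost w k) + d < cost w k x)
      (markov (h0 w k) (hB w k) hd) w
  refine (Finset.sum_le_sum e2).trans ?_
  rw [Finset.sum_const, nsmul_eq_mul]
  exact mul_le_mul_of_nonneg_right (by exact_mod_cast hm w) (pow_nonneg hr0 S)

/-- numerical form: `(B/(B+d))^S ≤ exp (-S d / (B + d))`. -/
theorem pow_le_exp {B d : ℝ} (hB : 0 ≤ B) (hd : 0 < d) (S : ℕ) :
    (B / (B + d)) ^ S ≤ Real.exp (-(S * d / (B + d))) := by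
  have h1 : B / (B + d) ≤ Real.exp (-(d / (B + d))) := by
    have := Real.add_one_le_exp (-(d / (B + d)))
    refine le_trans (le_of_eq ?_) this
    field_simp
    ring
  calc (B / (B + d)) ^ S ≤ (Real.exp (-(d / (B + d)))) ^ S :=
        pow_le_pow_left₀ (by positivity) h1 S
    _ = Real.exp (-(S * d / (B + d))) := by
        rw [← Real.exp_nat_mul]
        congr 1
        ring

/-! ### The same for the union of several machines: sums -/

/-- If the failure of every machine `r` in a finite family is small conditionally, then the total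
weight lost is small. -/
theorem sum_fail [Nonempty K] {ι : Type*} (s : Finset ι) {X : ι → (I → K) → ℝ}
    {Fail : ι → (I → K) → Prop} {p : ℝ}
    (h : ∀ r ∈ s, av (fun w => X r w * ind (Fail r w)) ≤ p * av (X r)) :
    av (fun w => ∑ r ∈ s, X r w * ind (Fail r w)) ≤ p * av (fun w => ∑ r ∈ s, X r w) := by
  rw [av_sum, av_sum, Finset.mul_sum]
  exact Finset.sum_le_sum h

end

end Vale.Agent.P315.H132
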