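import Vale.Agent.P315.H519.Runs

/-!
P315, row C-H3 (helper132): the machine inequality of one region, one scale, one class and one
offset, in normalised form, in the own rounds `t : ℕ` of the region.

`cR t` = certified cost of the region along the comparison path, `cU t u` = certified cost of its
unit `u` along the comparison path, `D t u e` = certified cost of the unit `u` along the edge `e`
of the net, `p` = the edges next to the comparison path, `pk j1 t` = the paths stored in round `t`
by the instance with the start block `j1`.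
-/

set_option autoImplicit false

open Finset

namespace Vale.Agent.P315.H132

/-! ### Normalised excess -/

/-- Normalised excess. -/
noncomputable def nx (D w c : ℝ) : ℝ := max 0 ((c - D) / w)

section nx

variable {D w c c' ε : ℝ}

theorem nx_nonneg : 0 ≤ nx D w c := le_max_left _ _

theorem le_nx (hw : 0 < w) : c ≤ D + w * nx D w c := by
  have h1 : (c - D) / w ≤ nx D w c := le_max_right _ _
  rw [div_le_iff₀ hw] at h1
  linarith

theorem nx_le (hw : 0 < w) (hε : 0 ≤ ε) (h : D - ε * w ≤ c) : D + w * nx D w c ≤ c + ε * w := by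
  unfold nx
  rcases max_cases 0 ((c - D) / w) with ⟨h1, _⟩ | ⟨h1, _⟩
  · rw [h1]; linarith
  · rw [h1, mul_div_cancel₀ _ hw.ne']
    have := mul_nonneg hε hw.le
    linarith

theorem nx_mono (hw : 0 < w) (h : c' ≤ c) : nx D w c' ≤ nx D w c :=
  max_le_max le_rfl (div_le_div_of_nonneg_right (by linarith) hw.le)

theorem nx_sub_le (hw : 0 < w) (h : c' ≤ c) : nx D w c - nx D w c' ≤ (c - c') / w := by
  have h0 : 0 ≤ (c - c') / w := div_nonneg (by linarith) hw.le
  have h1 : (c - D) / w = (c - c') / w + (c' - D) / w := by ring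
  have h2 : (c' - D) / w ≤ nx D w c' := le_max_right _ _
  have h3 : 0 ≤ nx D w c' := nx_nonneg
  have h4 : nx D w c ≤ (c - c') / w + nx D w c' := by
    refine max_le (by linarith) ?_
    rw [h1]
    linarith
  linarith

theorem sub_le_nx (hw : 0 < w) (hε : 0 ≤ ε) (h : D - ε * w ≤ c') :
    c - c' ≤ w * (nx D w c - nx D w c' + ε) := by
  have h1 : c ≤ D + w * nx D w c := le_nx hw
  have h2 := nx_le hw hε h
  nlinarith

end nx

/-! ### One region -/

open H782 (val xx Greedy harm err1)
open H330 (pv wcl)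
open H519 (blk win hist Lst lhsN)

section Units

variable {Un : Type*} [Fintype Un] [Nonempty Un]

/-- Average normalised excess of the units. -/
noncomputable def VV (DU : Un → ℝ) (w : ℝ) (c : Un → ℝ) : ℝ :=
  (∑ u, nx (DU u) w (c u)) / (Fintype.card Un : ℝ)

/-- Normalised excess of the region. -/
noncomputable def eR (DU : Un → ℝ) (w : ℝ) (c : ℝ) : ℝ :=
  nx (∑ u, DU u) ((Fintype.card Un : ℝ) * w) c

/-- Drops of the units in the windows of length `h` inside the block `[b0, b0 + len)`, over the
units which drop at most by `cN` in the whole block. -/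
noncomputable def lhsE (DU : Un → ℝ) (w cN : ℝ) (c : ℕ → Un → ℝ) (h len b0 : ℕ) : ℝ :=
  ∑ i ∈ range (len + 1 - h), (∑ u, (nx (DU u) w (c (b0 + i) u) - nx (DU u) w (c (b0 + i + h) u)) *
    (if nx (DU u) w (c b0 u) - nx (DU u) w (c (b0 + len) u) ≤ cN then 1 else 0)) /
      (Fintype.card Un : ℝ)

/-- (H1) for the normalised excess. -/
theorem eR_le_VV {DU : Un → ℝ} {w : ℝ} (hw : 0 < w) {cR : ℝ} {cU : Un → ℝ}
    (H1 : cR ≤ ∑ u, cU u) : eR DU w cR ≤ VV DU w cU := by
  have hcI : (0 : ℝ) < (Fintype.card Un : ℝ) := by exact_mod_cast Fintype.card_pos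
  unfold eR VV
  have h0 : 0 ≤ (∑ u, nx (DU u) w (cU u)) / (Fintype.card Un : ℝ) :=
    div_nonneg (Finset.sum_nonneg fun u _ => nx_nonneg) hcI.le
  refine max_le h0 ?_
  rw [div_le_div_iff₀ (by positivity) hcI]
  have h1 : ∑ u, cU u ≤ ∑ u, (DU u + w * nx (DU u) w (cU u)) :=
    Finset.sum_le_sum fun u _ => le_nx hw
  rw [Finset.sum_add_distrib, ← Finset.mul_sum] at h1
  have h2 : cR - ∑ u, DU u ≤ w * ∑ u, nx (DU u) w (cU u) := by linarith
  have := mul_le_mul_of_nonneg_right h2 hcI.le
  linarith

/-- The gain bounds the raw difference. -/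
theorem sum_sub_le {DU : Un → ℝ} {w ε : ℝ} (hw : 0 < w) (hε : 0 ≤ ε) {cR : ℝ} {cU : Un → ℝ}
    (low : ∑ u, DU u - ε * ((Fintype.card Un : ℝ) * w) ≤ cR) :
    ∑ u, cU u - cR ≤ (Fintype.card Un : ℝ) * w * (VV DU w cU - eR DU w cR + ε) := by
  have hcI : (0 : ℝ) < (Fintype.card Un : ℝ) := by exact_mod_cast Fintype.card_pos
  have h1 : ∑ u, cU u ≤ ∑ u, (DU u + w * nx (DU u) w (cU u)) :=
    Finset.sum_le_sum fun u _ => le_nx hw
  rw [Finset.sum_add_distrib, ← Finset.mul_sum] at h1
  have h2 := nx_le (D := ∑ u, DU u) (w := (Fintype.card Un : ℝ) * w) (by positivity) hε low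
  have h3 : (Fintype.card Un : ℝ) * w * VV DU w cU = w * ∑ u, nx (DU u) w (cU u) := by
    unfold VV; field_simp
  unfold eR
  have h4 : (Fintype.card Un : ℝ) * w * (VV DU w cU - nx (∑ u, DU u)
      ((Fintype.card Un : ℝ) * w) cR + ε) = (Fintype.card Un : ℝ) * w * VV DU w cU -
      (Fintype.card Un : ℝ) * w * nx (∑ u, DU u) ((Fintype.card Un : ℝ) * w) cR +
      ε * ((Fintype.card Un : ℝ) * w) := by ring
  rw [h4, h3]
  linarith

end Units

variable {I E : Type*}

/-- Only the active blocks from the start block on matter. -/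
theorem Lst_cut (D : ℕ → I → E → ℝ) (cap : ℝ) (o len h : ℕ) (act : ℕ → Prop) [DecidablePred act]
    {jc j1 : ℕ} (hj : jc ≤ j1) (t : ℕ) :
    Lst D cap o len h (fun j => act j ∧ jc ≤ j) j1 t = Lst D cap o len h act j1 t := by
  have hset : hist o len h (fun j => act j ∧ jc ≤ j) j1 t = hist o len h act j1 t := by
    unfold hist
    refine Finset.filter_congr fun t' _ => ?_
    constructor
    · rintro ⟨a, b, c⟩
      refine ⟨a, b, ?_⟩
      rcases c with ⟨c1, c2, _⟩ | c
      · exact Or.inl ⟨c1, c2⟩
      · exact Or.inr c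
    · rintro ⟨a, b, c⟩
      refine ⟨a, b, ?_⟩
      rcases c with ⟨c1, c2⟩ | c
      · exact Or.inl ⟨c1, c2, hj.trans c1⟩
      · exact Or.inr c
  unfold Lst
  rw [hset]

variable [Fintype I] [Fintype E] [DecidableEq E] [Nonempty I] [Nonempty E]
variable {Un : Type*} [Fintype Un] [Nonempty Un]

/-- **The machine inequality of one region**, one scale, one class, one offset. `em u` = row of the
unit `u` in the graph of the machine; the other rows only pay shifts at the two ends. `r` =
rounding errors. -/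
theorem region_h3b {em : Un → I} (hem : Function.Injective em) {PP : Set (I → E)}
    {D : ℕ → I → E → ℝ} (hD : ∀ t i e, D (t + 1) i e ≤ D t i e)
    {cU : ℕ → Un → ℝ} (hcUa : ∀ u, Antitone fun t => cU t u) {cR : ℕ → ℝ} {DU : Un → ℝ} {w : ℝ}
    (hw : 0 < w) {ε d rb : ℝ} {r : I → ℝ} (hε : 0 ≤ ε) (hr0 : ∀ i, 0 ≤ r i) (hd : 0 ≤ d)
    (hrb : ∑ i, r i ≤ (Fintype.card Un : ℝ) * rb)
    (lowU : ∀ t u, DU u - ε * w ≤ cU t u)
    (lowR : ∀ t, ∑ u, DU u - ε * ((Fintype.card Un : ℝ) * w) ≤ cR t)
    (H1 : ∀ t, cR t ≤ ∑ u, cU t u)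
    {p : I → E} (hp : p ∈ PP) (hr : ∀ t u, |D t (em u) (p (em u)) - cU t u| ≤ r (em u))
    (hr' : ∀ t i, (∀ u, em u ≠ i) → D t i (p i) ≤ r i)
    {cap cN : ℝ} (hcap0 : 0 < cap) (hcap : ∀ u, w * (cN + ε) + 2 * r (em u) ≤ cap)
    {o len h : ℕ} (hh : 0 < h) (hhl : h ≤ len) {act A : ℕ → Prop} [DecidablePred act]
    [DecidablePred A] {jc : ℕ} (hA : ∀ j, A j → act j) (hAc : ∀ j, A j → jc ≤ j) {N : ℕ}
    (hAo : ∀ j, A j → o ≤ j * len) {S T : ℕ} (hS : 0 < S) (hT : 0 < T)
    {pk : ℕ → ℕ → ℕ → I → E}
    (hpk : ∀ j1 t, blk o len t < N → win o len h t → A (blk o len t) → act j1 → jc ≤ j1 →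
      j1 ≤ blk o len t → Greedy (harm S) (Lst D cap o len h act j1 t) PP T (pk j1 t))
    (cert : ∀ j1 t, blk o len t < N → win o len h t → A (blk o len t) → act j1 → jc ≤ j1 →
      j1 ≤ blk o len t →
      cR t ≤ val (D (t + h)) (xx (pk j1 t) T) + (Fintype.card Un : ℝ) * d)
    {th : ℝ} (hth0 : 0 < th) (hth1 : th ≤ 1 / 2) :
    ∑ j ∈ (range N).filter A, lhsE DU w cN cU h len (j * len - o) ≤
      2 * ∑ j ∈ (range N).filter A, ∑ i ∈ range len,
        (VV DU w (cU (j * len - o + i)) - eR DU w (cR (j * len - o + i)))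
      + (1 + (((range N).filter fun j => (act j ∧ jc ≤ j) ∧ ¬ A j).card : ℝ))
        * (h * ((Fintype.card I : ℝ) / (Fintype.card Un : ℝ) *
          (cap / w * Real.log (Fintype.card E : ℝ))))
      + (((range N).filter A).card : ℝ) * (len * (2 * ε + (4 * rb + 2 * d) / w
          + (Fintype.card I : ℝ) / (Fintype.card Un : ℝ) *
            (cap / w * (4 * th + err1 (Fintype.card E) T (T / S) / th)))) := by
  classical
  have hcI : (0 : ℝ) < (Fintype.card I : ℝ) := by exact_mod_cast Fintype.card_pos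
  have hcU : (0 : ℝ) < (Fintype.card Un : ℝ) := by exact_mod_cast Fintype.card_pos
  have hrb0 : 0 ≤ rb := by
    have h1 : 0 ≤ (Fintype.card Un : ℝ) * rb :=
      (Finset.sum_nonneg fun u _ => hr0 u).trans hrb
    exact nonneg_of_mul_nonneg_right h1 hcU
  -- sums over the rows of the machine and over the units
  have hsplit : ∀ f : I → ℝ, ∑ i, f i =
      ∑ u, f (em u) + ∑ i ∈ univ.filter (fun i => ∀ u, em u ≠ i), f i := by
    intro f
    have e1 : ∑ u, f (em u) = ∑ i ∈ univ.filter (fun i => ¬ ∀ u, em u ≠ i), f i := by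
      rw [← Finset.sum_image (f := f) (s := (univ : Finset Un)) (g := em)
        (fun a _ b _ hab => hem hab)]
      refine Finset.sum_congr ?_ fun _ _ => rfl
      ext i
      simp
    rw [e1, add_comm]
    exact (Finset.sum_filter_add_sum_filter_not univ (fun i => ∀ u, em u ≠ i) f).symm
  have hmain := H519.h3b_start (act := fun j => act j ∧ jc ≤ j) (A := A) hD hcap0 hh hhl
    (fun j hj => ⟨hA j hj, hAc j hj⟩) (N := N) hAo hS hT
    (fun j1 t h1 h2 h3 h4 h5 => by
      rw [Lst_cut D cap o len h act h4.2]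
      exact hpk j1 t h1 h2 h3 h4.1 h4.2 h5)
    hp hth0 hth1
    (G := fun t => (Fintype.card Un : ℝ) / (Fintype.card I : ℝ) *
      (w * (VV DU w (cU t) - eR DU w (cR t))))
    (fun t => mul_nonneg (by positivity)
      (mul_nonneg hw.le (sub_nonneg.2 (eR_le_VV hw (H1 t)))))
    (del := (Fintype.card Un : ℝ) / (Fintype.card I : ℝ) * (w * ε + rb + d)) (by positivity)
    (fun j1 t h1 h2 h3 h4 h5 => by
      have hc := cert j1 t h1 h2 h3 h4.1 h4.2 h5
      have hp1 : pv (D t) p ≤ ∑ u, cU t u + (Fintype.card Un : ℝ) * rb := by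
        unfold pv
        have e1 := hsplit fun i => D t i (p i)
        have e2 := hsplit r
        have e3 : ∑ u, D t (em u) (p (em u)) ≤ ∑ u, (cU t u + r (em u)) :=
          Finset.sum_le_sum fun u _ => by
            have := (abs_le.1 (hr t u)).2
            linarith
        rw [Finset.sum_add_distrib] at e3
        have e4 : ∑ i ∈ univ.filter (fun i => ∀ u, em u ≠ i), D t i (p i) ≤
            ∑ i ∈ univ.filter (fun i => ∀ u, em u ≠ i), r i :=
          Finset.sum_le_sum fun i hi => hr' t i (Finset.mem_filter.1 hi).2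
        linarith
      have hs := sum_sub_le (cU := cU t) hw hε (lowR t)
      rw [div_le_iff₀ hcI]
      have e5 : ((Fintype.card Un : ℝ) / (Fintype.card I : ℝ) *
          (w * (VV DU w (cU t) - eR DU w (cR t))) +
          (Fintype.card Un : ℝ) / (Fintype.card I : ℝ) * (w * ε + rb + d)) *
            (Fintype.card I : ℝ) =
          (Fintype.card Un : ℝ) * (w * (VV DU w (cU t) - eR DU w (cR t)) + (w * ε + rb + d)) := by
        field_simp
      rw [e5]
      nlinarith)
  -- the left side
  have hlhs : ∀ j ∈ (range N).filter A, lhsE DU w cN cU h len (j * len - o) ≤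
      ((Fintype.card I : ℝ) / (Fintype.card Un : ℝ) * lhsN D p cap h len (j * len - o) +
        len * (2 * rb)) / w := by
    intro j _
    set b0 := j * len - o with hb0
    unfold lhsE lhsN
    have hterm : ∀ i ∈ range (len + 1 - h),
        (∑ u, (nx (DU u) w (cU (b0 + i) u) - nx (DU u) w (cU (b0 + i + h) u)) *
          (if nx (DU u) w (cU b0 u) - nx (DU u) w (cU (b0 + len) u) ≤ cN then 1 else 0)) /
          (Fintype.card Un : ℝ) ≤
        (∑ u, (if D b0 u (p u) - D (b0 + len) u (p u) ≤ cap then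
          D (b0 + i) u (p u) - D (b0 + i + h) u (p u) else 0)) / (Fintype.card Un : ℝ) / w +
          2 * rb / w := by
      intro i hi
      have hi' := Finset.mem_range.1 hi
      have hDn : ∀ u : I, 0 ≤ (if D b0 u (p u) - D (b0 + len) u (p u) ≤ cap then
          D (b0 + i) u (p u) - D (b0 + i + h) u (p u) else 0) := by
        intro u
        split_ifs
        · have := H519.anti_nat hD u (p u) (b0 + i) h
          linarith
        · exact le_rfl
      have hunit : ∀ u : Un, (nx (DU u) w (cU (b0 + i) u) - nx (DU u) w (cU (b0 + i + h) u)) *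
          (if nx (DU u) w (cU b0 u) - nx (DU u) w (cU (b0 + len) u) ≤ cN then 1 else 0) ≤
          ((if D b0 (em u) (p (em u)) - D (b0 + len) (em u) (p (em u)) ≤ cap then
            D (b0 + i) (em u) (p (em u)) - D (b0 + i + h) (em u) (p (em u)) else 0) +
              2 * r (em u)) / w := by
        intro u
        have hanti : cU (b0 + i + h) u ≤ cU (b0 + i) u := hcUa u (by omega)
        have hr0' := hr0 (em u)
        by_cases hc : nx (DU u) w (cU b0 u) - nx (DU u) w (cU (b0 + len) u) ≤ cN
        · rw [if_pos hc, mul_one]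
          have hdrop : D b0 (em u) (p (em u)) - D (b0 + len) (em u) (p (em u)) ≤ cap := by
            have h1 := sub_le_nx (c := cU b0 u) hw hε (lowU (b0 + len) u)
            have h2 := (abs_le.1 (hr b0 u)).2
            have h3 := (abs_le.1 (hr (b0 + len) u)).1
            have h4 : w * (nx (DU u) w (cU b0 u) - nx (DU u) w (cU (b0 + len) u) + ε) ≤
                w * (cN + ε) := mul_le_mul_of_nonneg_left (by linarith) hw.le
            have h5 := hcap u
            linarith
          rw [if_pos hdrop]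
          refine (nx_sub_le hw hanti).trans (div_le_div_of_nonneg_right ?_ hw.le)
          have h2 := (abs_le.1 (hr (b0 + i) u)).1
          have h3 := (abs_le.1 (hr (b0 + i + h) u)).2
          linarith
        · rw [if_neg hc, mul_zero]
          have := hDn (em u)
          exact div_nonneg (by linarith) hw.le
      have hsum := Finset.sum_le_sum fun u (_ : u ∈ (univ : Finset Un)) => hunit u
      rw [← Finset.sum_div, Finset.sum_add_distrib, ← Finset.mul_sum] at hsum
      have e1 := hsplit fun u => (if D b0 u (p u) - D (b0 + len) u (p u) ≤ cap then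
          D (b0 + i) u (p u) - D (b0 + i + h) u (p u) else 0)
      have e2 := hsplit r
      have e3 : 0 ≤ ∑ u ∈ univ.filter (fun i => ∀ u, em u ≠ i),
          (if D b0 u (p u) - D (b0 + len) u (p u) ≤ cap then
          D (b0 + i) u (p u) - D (b0 + i + h) u (p u) else 0) :=
        Finset.sum_nonneg fun u _ => hDn u
      have e4 : 0 ≤ ∑ i ∈ univ.filter (fun i => ∀ u, em u ≠ i), r i :=
        Finset.sum_nonneg fun u _ => hr0 u
      have h6 : (∑ u, (if D b0 u (p u) - D (b0 + len) u (p u) ≤ cap then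
          D (b0 + i) u (p u) - D (b0 + i + h) u (p u) else 0)) / (Fintype.card Un : ℝ) / w +
          2 * rb / w =
          ((∑ u, (if D b0 u (p u) - D (b0 + len) u (p u) ≤ cap then
          D (b0 + i) u (p u) - D (b0 + i + h) u (p u) else 0) +
            2 * ((Fintype.card Un : ℝ) * rb)) / w) / (Fintype.card Un : ℝ) := by
        field_simp
      rw [h6]
      refine div_le_div_of_nonneg_right (hsum.trans ?_) hcU.le
      refine div_le_div_of_nonneg_right ?_ hw.le
      linarith
    refine (Finset.sum_le_sum hterm).trans ?_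
    rw [Finset.sum_add_distrib, Finset.sum_const, Finset.card_range, nsmul_eq_mul,
      ← Finset.sum_div, ← Finset.sum_div]
    have hl : ((len + 1 - h : ℕ) : ℝ) ≤ (len : ℝ) := by
      exact_mod_cast (by omega : len + 1 - h ≤ len)
    have hnn : 0 ≤ 2 * rb / w := by positivity
    have h7 := mul_le_mul_of_nonneg_right hl hnn
    have h8 : (len : ℝ) * (2 * rb / w) = len * (2 * rb) / w := by ring
    have h9 : (Fintype.card I : ℝ) / (Fintype.card Un : ℝ) *
        ((∑ i ∈ range (len + 1 - h), ∑ u, (if D b0 u (p u) - D (b0 + len) u (p u) ≤ cap then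
          D (b0 + i) u (p u) - D (b0 + i + h) u (p u) else 0)) / (Fintype.card I : ℝ)) =
        (∑ i ∈ range (len + 1 - h), ∑ u, (if D b0 u (p u) - D (b0 + len) u (p u) ≤ cap then
          D (b0 + i) u (p u) - D (b0 + i + h) u (p u) else 0)) / (Fintype.card Un : ℝ) := by
      field_simp
    rw [h9, add_div]
    linarith
  refine (Finset.sum_le_sum hlhs).trans ?_
  rw [← Finset.sum_div, Finset.sum_add_distrib, Finset.sum_const, nsmul_eq_mul,
    ← Finset.mul_sum]
  have hm1 := mul_le_mul_of_nonneg_left hmain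
    (show (0 : ℝ) ≤ (Fintype.card I : ℝ) / (Fintype.card Un : ℝ) by positivity)
  refine (div_le_div_of_nonneg_right (add_le_add hm1 le_rfl) hw.le).trans (le_of_eq ?_)
  simp only [← Finset.mul_sum]
  field_simp
  ring

end Vale.Agent.P315.H132
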