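import Vale.Agent.P315.H132.Cert
import Vale.Agent.P315.H132.Region
import Vale.Agent.P315.H220.WD
import Vale.Agent.P315.H423.FailAct

/-!
P315, row C-H3 (helper132): the machine inequality of one region for the concrete machines of the
additive geometry (`H801.mach`), in the own rounds of the region.

`TopOK` = what is used of the certified costs: `D` = unit costs of the rounds (history of the
region), `CR` = certified cost of the region in the rounds, `coin` = coins of the scale.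
-/

set_option autoImplicit false

open Finset

namespace Vale.Agent.P315.H132

open H801 H220 Vale.Agent.P315.C

/-- What is used of the certified costs in one region. -/
structure TopOK (K h Tu g NL Dl R T Sh Cc μ B a cnt : ℕ) (D : ℕ → ℕ → ℕ → ℕ → ℕ → ℕ)
    (CR : ℕ → ℕ → ℕ → ℕ) (coin : ℕ → ℕ) : Prop where
  anti : ∀ κ m x u v, D (κ + 1) m x u v ≤ D κ m x u v
  lipD : ∀ κ m x u u' v v', D κ m x u v ≤
    2 * Nat.dist u u' + D κ m x u' v' + 2 * Nat.dist v' v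
  lipR : ∀ κ u u' v v', CR κ u v ≤ 2 * Nat.dist u u' + CR κ u' v' + 2 * Nat.dist v' v
  route : ∀ κ u v (r : ℕ → ℕ × ℕ) (x : ℕ → ℕ),
    (∀ m, m < K → a * K ≤ x m ∧ x m < (a + 2) * K) → CR κ u v ≤
      rcost 2 K (fun m => D κ m (x m)) u v r
  stored : ∀ q, q < cnt → ∀ κ,
    CR κ (posN μ B (a * (K * Tu)) Tu g (qA g q * K)) (posN μ B (a * (K * Tu)) Tu g (qB g q * K)) ≤
      ∑ i : Fin (K + 2), nodeD K Tu g μ B a D (κ + h) i
        (pk K h Tu g NL Dl R T Sh Cc μ B q κ a D (coin (qS g NL Dl R q) % T) i).1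
        (pk K h Tu g NL Dl R T Sh Cc μ B q κ a D (coin (qS g NL Dl R q) % T) i).2

/-- The certified costs of the additive geometry satisfy `TopOK`. -/
theorem topOK {M ℓ μ B J S H : ℕ} (X : MP) {ω : Rnd} {vis hid : Leaf}
    (hM : 0 < M) (hE : ∃ p q, H140.Ed (boxPar M ℓ μ B J S H) p q)
    (hle : HidLe (boxPar M ℓ μ B J S H) vis hid)
    {j i a s : ℕ} (hj : 0 < j) (hs : s < S) (hsj : 2 ^ s ∣ j) (hT : 0 < X.T s) :
    TopOK (M ^ 2 ^ s) (2 ^ s) (ℓ * M ^ (j - 2 ^ s)) (X.g s) (X.NL s) (X.Dl s) (X.R s) (X.T s)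
      (X.Sh s) X.C μ B a (X.cnt s)
      (hist (boxPar M ℓ μ B J S H) ω vis hid
        (rd (boxPar M ℓ μ B J S H) (mach X M ℓ μ B) ω vis hid) j i a s)
      (fun κ u v => cR (boxPar M ℓ μ B J S H) (mach X M ℓ μ B) ω vis hid j i a
        ((κ : ℤ) - H) u v)
      (ω.coin j s) where
  anti := fun κ m x u v => hist_anti hE hle (Nat.le_succ κ) j i a s m x u v
  lipD := fun κ m x u u' v v' => cR_lip hE _ _ _ _ u u' v v'
  lipR := fun κ u u' v v' => cR_lip hE _ _ _ _ u u' v v'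
  route := by
    intro κ u v r x hx
    have he : 2 ^ s ≤ j := Nat.le_of_dvd hj hsj
    have h := cR_H1_route (P := boxPar M ℓ μ B J S H) (mc := mach X M ℓ μ B) (ω := ω)
      (vis := vis) (hid := hid) hM box_penOK hE hle (i := i) (a := a) he ((κ : ℤ) - H) x
      (fun m hm => by
        have hm' : m < M ^ 2 ^ s := hm
        exact box_mem_desc hM (by positivity) (hx m hm').1 (hx m hm').2) u v r
    exact h
  stored := fun q hq κ => cR_le_stored X hM hE hle hj hs hsj hq (by omega) hT rfl rfl rfl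

section

variable {K h Tu g NL Dl R T Sh Cc μ B a cnt : ℕ} {D : ℕ → ℕ → ℕ → ℕ → ℕ → ℕ}
  {CR : ℕ → ℕ → ℕ → ℕ} {coin : ℕ → ℕ} {η : ℕ} {z : ℕ → ℕ}

theorem dist_le {x y e : ℕ} (h1 : y ≤ x) (h2 : x < y + e) : Nat.dist x y ≤ e := by
  unfold Nat.dist; omega

theorem dist_le' {x y e : ℕ} (h1 : y ≤ x) (h2 : x < y + e) : Nat.dist y x ≤ e := by
  unfold Nat.dist; omega

/-- The unit rows of the comparison path. -/
theorem unit_close (N : Net K Tu g μ B a η z)
    (hO : TopOK K h Tu g NL Dl R T Sh Cc μ B a cnt D CR coin) (κ : ℕ) {u : ℕ} (hu : u < K) :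
    |(nodeD K Tu g μ B a D κ (u + 1) (FF K Tu a η z (u + 1)) (FF K Tu a η z (u + 2)) : ℝ) -
      (D κ u (z u / Tu) (z u) (z (u + 1)) : ℝ)| ≤ 4 * η := by
  unfold nodeD
  rw [if_pos ⟨by omega, by omega⟩, Nat.add_sub_cancel, N.lab_mid hu, N.pos_mid hu.le,
    N.pos_mid (show u + 1 ≤ K by omega)]
  obtain ⟨h1, h2⟩ := N.nd_le hu.le
  obtain ⟨h3, h4⟩ := N.nd_le (show u + 1 ≤ K by omega)
  set y0 := a * (K * Tu) + nd K Tu a η (z u) * η
  set y1 := a * (K * Tu) + nd K Tu a η (z (u + 1)) * η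
  have e1 := hO.lipD κ u (z u / Tu) y0 (z u) y1 (z (u + 1))
  have e2 := hO.lipD κ u (z u / Tu) (z u) y0 (z (u + 1)) y1
  have d1 := dist_le h1 h2
  have d2 := dist_le' h1 h2
  have d3 := dist_le h3 h4
  have d4 := dist_le' h3 h4
  have f1 : D κ u (z u / Tu) y0 y1 ≤ D κ u (z u / Tu) (z u) (z (u + 1)) + 4 * η := by omega
  have f2 : D κ u (z u / Tu) (z u) (z (u + 1)) ≤ D κ u (z u / Tu) y0 y1 + 4 * η := by omega
  have f1' : (D κ u (z u / Tu) y0 y1 : ℝ) ≤ D κ u (z u / Tu) (z u) (z (u + 1)) + 4 * η := by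
    exact_mod_cast f1
  have f2' : (D κ u (z u / Tu) (z u) (z (u + 1)) : ℝ) ≤ D κ u (z u / Tu) y0 y1 + 4 * η := by
    exact_mod_cast f2
  rw [abs_le]
  constructor <;> linarith

theorem first_close (N : Net K Tu g μ B a η z) (κ : ℕ) :
    nodeD K Tu g μ B a D κ 0 (FF K Tu a η z 0) (FF K Tu a η z 1) ≤ 2 * (K * η) := by
  unfold nodeD
  rw [if_neg (by omega), N.FF_zero, N.pos_zero]
  have h0 := N.pos_mid (u := 0) (Nat.zero_le _)
  rw [Nat.zero_add] at h0
  rw [h0]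
  obtain ⟨h1, h2⟩ := N.nd_le (u := 0) (Nat.zero_le _)
  obtain ⟨h3, h4⟩ := N.cn_le (u := 0) (Nat.zero_le _)
  have h5 : η ≤ K * η := Nat.le_mul_of_pos_left _ N.hK
  omega

theorem last_close (N : Net K Tu g μ B a η z) (κ : ℕ) :
    nodeD K Tu g μ B a D κ (K + 1) (FF K Tu a η z (K + 1)) (FF K Tu a η z (K + 2)) ≤
      2 * (K * η) := by
  unfold nodeD
  rw [if_neg (by omega), N.FF_last, N.pos_last, N.pos_mid le_rfl]
  obtain ⟨h1, h2⟩ := N.nd_le (u := K) le_rfl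
  obtain ⟨h3, h4⟩ := N.cn_le (u := K) le_rfl
  have h5 : η ≤ K * η := Nat.le_mul_of_pos_left _ N.hK
  omega

/-- Rounding errors of the rows. -/
noncomputable def rr (K η : ℕ) (i : ℕ) : ℝ := if 1 ≤ i ∧ i ≤ K then 4 * η else 2 * (K * η)

theorem rr_nonneg (K η i : ℕ) : 0 ≤ rr K η i := by
  unfold rr; split_ifs <;> positivity

theorem sum_rr (K η : ℕ) : ∑ i : Fin (K + 2), rr K η i = K * (8 * η) := by
  rw [Fin.sum_univ_eq_sum_range (fun i => rr K η i), Finset.sum_range_succ,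
    Finset.sum_range_succ']
  have h1 : ∀ u ∈ range K, rr K η (u + 1) = 4 * η := by
    intro u hu
    have := Finset.mem_range.1 hu
    unfold rr
    rw [if_pos ⟨by omega, by omega⟩]
  rw [Finset.sum_congr rfl h1, Finset.sum_const, card_range, nsmul_eq_mul]
  have h2 : rr K η 0 = 2 * (K * η) := by unfold rr; rw [if_neg (by omega)]
  have h3 : rr K η (K + 1) = 2 * (K * η) := by unfold rr; rw [if_neg (by omega)]
  rw [h2, h3]
  ring

/-- The comparison path on the nodes. -/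
def pp (N : Net K Tu g μ B a η z) (i : Fin (K + 2)) :
    Fin (2 * K * g + 1) × Fin (2 * K * g + 1) :=
  (⟨FF K Tu a η z i, N.FF_lt i⟩, ⟨FF K Tu a η z (i + 1), N.FF_lt (i + 1)⟩)

theorem pp_mem (N : Net K Tu g μ B a η z) : pp N ∈ H763.paths (K + 2) (2 * K * g + 1)
    (cn K Tu a η (z 0) * K) (cn K Tu a η (z K) * K) :=
  ⟨FF K Tu a η z, N.FF_zero, N.FF_last, fun _ => ⟨rfl, rfl⟩⟩

theorem lab_ok (N : Net K Tu g μ B a η z) {u : ℕ} (hu : u < K) :
    a * K ≤ z u / Tu ∧ z u / Tu < (a + 2) * K := by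
  have hTu0 : 0 < Tu := by rw [N.hTu]; exact Nat.mul_pos N.hg N.hη
  constructor
  · rw [Nat.le_div_iff_mul_le hTu0, mul_assoc]; exact N.lo' hu.le
  · rw [Nat.div_lt_iff_lt_mul hTu0, mul_assoc]; exact N.up' hu.le

/-- (H1). -/
theorem H1_path (N : Net K Tu g μ B a η z)
    (hO : TopOK K h Tu g NL Dl R T Sh Cc μ B a cnt D CR coin) (κ : ℕ) :
    CR κ (z 0) (z K) ≤ ∑ u ∈ range K, D κ u (z u / Tu) (z u) (z (u + 1)) :=
  (hO.route κ (z 0) (z K) (fun m => (z m, z (m + 1))) (fun m => z m / Tu)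
    fun _ hm => lab_ok N hm).trans
    (le_of_eq (rcost_path 2 K (fun m => D κ m (z m / Tu)) z))

/-- Value of the cheapest path between the coarse nodes: upper bound. -/
theorem WD_le (N : Net K Tu g μ B a η z)
    (hO : TopOK K h Tu g NL Dl R T Sh Cc μ B a cnt D CR coin) (κ : ℕ) :
    (WD (K + 2) (2 * K * g + 1) (cn K Tu a η (z 0) * K) (cn K Tu a η (z K) * K)
      (nodeD K Tu g μ B a D κ) : ℝ) ≤
      ∑ u : Fin K, (D κ u (z u / Tu) (z u) (z (u + 1)) : ℝ) + K * (8 * η) := by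
  have h0 : cn K Tu a η (z 0) * K < 2 * K * g + 1 := by rw [← N.FF_zero]; exact N.FF_lt 0
  have hL : cn K Tu a η (z K) * K < 2 * K * g + 1 := by rw [← N.FF_last]; exact N.FF_lt _
  have h1 := (wd_spec (nodeD K Tu g μ B a D κ) (Nat.succ_pos (K + 1)) h0 hL).2
    (FF K Tu a η z) N.FF_zero N.FF_last (fun i _ => N.FF_lt i)
  have h2 : ((∑ i ∈ range (K + 1 + 1), nodeD K Tu g μ B a D κ i (FF K Tu a η z i)
      (FF K Tu a η z (i + 1)) : ℕ) : ℝ) ≤
      ∑ u : Fin K, (D κ u (z u / Tu) (z u) (z (u + 1)) : ℝ) + K * (8 * η) := by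
    rw [Finset.sum_range_succ, Finset.sum_range_succ']
    push_cast
    have h3 : ∀ u ∈ range K, (nodeD K Tu g μ B a D κ (u + 1) (FF K Tu a η z (u + 1))
        (FF K Tu a η z (u + 1 + 1)) : ℝ) ≤ D κ u (z u / Tu) (z u) (z (u + 1)) + 4 * η := by
      intro u hu
      have := (abs_le.1 (unit_close N hO κ (Finset.mem_range.1 hu))).2
      linarith
    have h4 := Finset.sum_le_sum h3
    rw [Finset.sum_add_distrib, Finset.sum_const, card_range, nsmul_eq_mul] at h4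
    have h5 : (nodeD K Tu g μ B a D κ 0 (FF K Tu a η z 0) (FF K Tu a η z (0 + 1)) : ℝ) ≤
        2 * (K * η) := by exact_mod_cast first_close N κ
    have h6 : (nodeD K Tu g μ B a D κ (K + 1) (FF K Tu a η z (K + 1))
        (FF K Tu a η z (K + 1 + 1)) : ℝ) ≤ 2 * (K * η) := by exact_mod_cast last_close N κ
    have h7 : ∑ u : Fin K, (D κ u (z u / Tu) (z u) (z (u + 1)) : ℝ) =
        ∑ u ∈ range K, (D κ u (z u / Tu) (z u) (z (u + 1)) : ℝ) :=
      Fin.sum_univ_eq_sum_range (fun u => (D κ u (z u / Tu) (z u) (z (u + 1)) : ℝ)) K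
    rw [h7]
    linarith
  refine le_trans ?_ h2
  exact_mod_cast h1

/-- The certified cost between the coarse nodes. -/
theorem CR_coarse (N : Net K Tu g μ B a η z)
    (hO : TopOK K h Tu g NL Dl R T Sh Cc μ B a cnt D CR coin) (κ : ℕ) :
    CR κ (z 0) (z K) ≤ CR κ (posN μ B (a * (K * Tu)) Tu g (cn K Tu a η (z 0) * K))
      (posN μ B (a * (K * Tu)) Tu g (cn K Tu a η (z K) * K)) + 4 * (K * η) := by
  rw [N.pos_zero, N.pos_last]
  obtain ⟨h1, h2⟩ := N.cn_le (u := 0) (Nat.zero_le _)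
  obtain ⟨h3, h4⟩ := N.cn_le (u := K) le_rfl
  have e := hO.lipR κ (z 0) (a * (K * Tu) + cn K Tu a η (z 0) * K * η) (z K)
    (a * (K * Tu) + cn K Tu a η (z K) * K * η)
  have d1 := dist_le h1 h2
  have d2 := dist_le' h3 h4
  omega

/-- Value of the cheapest path between the coarse nodes: lower bound. -/
theorem le_WD (N : Net K Tu g μ B a η z)
    (hO : TopOK K h Tu g NL Dl R T Sh Cc μ B a cnt D CR coin) (κ : ℕ) :
    CR κ (z 0) (z K) ≤ WD (K + 2) (2 * K * g + 1) (cn K Tu a η (z 0) * K)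
      (cn K Tu a η (z K) * K) (nodeD K Tu g μ B a D κ) + 4 * (K * η) := by
  have h0 : cn K Tu a η (z 0) * K < 2 * K * g + 1 := by rw [← N.FF_zero]; exact N.FF_lt 0
  have hL : cn K Tu a η (z K) * K < 2 * K * g + 1 := by rw [← N.FF_last]; exact N.FF_lt _
  obtain ⟨f, f0, fK, -, hf⟩ := (wd_spec (nodeD K Tu g μ B a D κ) (Nat.succ_pos (K + 1)) h0 hL).1
  refine (CR_coarse N hO κ).trans (Nat.add_le_add_right ?_ _)
  rw [hf, ← f0, ← fK]
  show _ ≤ ∑ i ∈ range (K + 2), nodeD K Tu g μ B a D κ i (f i) (f (i + 1))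
  rw [← rcost_nodes N.hK D κ f]
  exact hO.route κ _ _ _ (fun m => labN K Tu a (posN μ B (a * (K * Tu)) Tu g (f (m + 1))))
    fun m _ => labN_bound N.hK

/-- The number of the instance is below `R`. -/
theorem rk_lt_R (N : Net K Tu g μ B a η z)
    (hO : TopOK K h Tu g NL Dl R T Sh Cc μ B a cnt D CR coin) {DU : Fin K → ℝ} {w ε : ℝ}
    (lowR : ∀ t, ∑ u, DU u - ε * (K * w) ≤ (CR t (z 0) (z K) : ℝ))
    (upU : ∀ u : Fin K, (D 0 u (z u / Tu) (z u) (z (u + 1)) : ℝ) ≤ DU u + w) {o c0 c1 R' : ℕ}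
    (hR : K * w * (1 + ε) + 12 * (K * η) < R' * c1) (j1 : ℕ) :
    rk (actD (K + 2) (2 * K * g + 1) (cn K Tu a η (z 0) * K) (cn K Tu a η (z K) * K) Dl o c0 c1
      (nodeD K Tu g μ B a D)) j1 < R' := by
  classical
  have h0 : cn K Tu a η (z 0) * K < 2 * K * g + 1 := by rw [← N.FF_zero]; exact N.FF_lt 0
  have hL : cn K Tu a η (z K) * K < 2 * K * g + 1 := by rw [← N.FF_last]; exact N.FF_lt _
  set A0 := cn K Tu a η (z 0) * K with hA0
  set B0 := cn K Tu a η (z K) * K with hB0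
  set f := nodeD K Tu g μ B a D with hf
  have key := card_drop_mul_le (V := fun t => WD (K + 2) (2 * K * g + 1) A0 B0 (f t))
    (fun t => wd_mono (Nat.succ_pos _) h0 hL fun i _ x _ y _ => nodeD_anti hO.anti t i x y)
    Dl o c1 j1 (actD (K + 2) (2 * K * g + 1) A0 B0 Dl o c0 c1 f) (fun β hβ => hβ.1)
  have hcard : rk (actD (K + 2) (2 * K * g + 1) A0 B0 Dl o c0 c1 f) j1 =
      ((Finset.range j1).filter (actD (K + 2) (2 * K * g + 1) A0 B0 Dl o c0 c1 f)).card := by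
    unfold rk
    rw [← List.toFinset_card_of_nodup (List.nodup_range.filter _)]
    congr 1
    ext β
    rw [List.mem_toFinset, List.mem_filter, List.mem_range, Finset.mem_filter,
      Finset.mem_range, decide_eq_true_eq]
  rw [← hcard] at key
  by_contra hcon
  have h1 : (R' : ℝ) * c1 ≤
      (rk (actD (K + 2) (2 * K * g + 1) A0 B0 Dl o c0 c1 f) j1 : ℝ) * c1 :=
    mul_le_mul_of_nonneg_right (by exact_mod_cast not_lt.1 hcon) (Nat.cast_nonneg _)
  have h2 : ((rk (actD (K + 2) (2 * K * g + 1) A0 B0 Dl o c0 c1 f) j1 : ℝ) * c1 +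
      (WD (K + 2) (2 * K * g + 1) A0 B0 (f (blo Dl o j1)) : ℝ)) ≤
      (WD (K + 2) (2 * K * g + 1) A0 B0 (f 0) : ℝ) := by exact_mod_cast key
  have h3 := WD_le N hO 0
  have h4 : (CR (blo Dl o j1) (z 0) (z K) : ℝ) ≤
      (WD (K + 2) (2 * K * g + 1) A0 B0 (f (blo Dl o j1)) : ℝ) + 4 * (K * η) := by
    exact_mod_cast le_WD N hO (blo Dl o j1)
  have h5 := lowR (blo Dl o j1)
  have h6 : ∑ u : Fin K, (D 0 u (z u / Tu) (z u) (z (u + 1)) : ℝ) ≤ ∑ u, DU u + K * w := by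
    refine (Finset.sum_le_sum fun u _ => upU u).trans (le_of_eq ?_)
    rw [Finset.sum_add_distrib, Finset.sum_const, card_univ, Fintype.card_fin, nsmul_eq_mul]
  nlinarith

theorem pk_greedy' {q j1 κ a0 b0 l o : ℕ} (hqA : qA g q = a0) (hqB : qB g q = b0)
    (hqL : qL g NL q = l) (hqO : qO g NL Dl q = o)
    (hD : ∀ κ m x u v, D (κ + 1) m x u v ≤ D κ m x u v) (hSh : 0 < Sh)
    (hcap : 0 < cdiv (Cc * Tu) (2 ^ l)) (hh : 0 < h) (hDl : 0 < Dl) (hj : j1 ≤ blk Dl o κ)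
    (hr : qR g NL Dl R q = rk (actD (K + 2) (2 * K * g + 1) (a0 * K) (b0 * K) Dl o
      (cdiv (K * Tu) (2 ^ l)) (cdiv (K * Tu) (2 ^ (l + 1))) (nodeD K Tu g μ B a D)) j1) :
    H782.Greedy (H782.harm Sh)
      (H519.Lst (Dr (K + 2) (2 * K * g + 1) (nodeD K Tu g μ B a D))
        (cdiv (Cc * Tu) (2 ^ l) : ℕ) o Dl h
        (actD (K + 2) (2 * K * g + 1) (a0 * K) (b0 * K) Dl o
          (cdiv (K * Tu) (2 ^ l)) (cdiv (K * Tu) (2 ^ (l + 1))) (nodeD K Tu g μ B a D)) j1 κ)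
      (H763.paths (K + 2) (2 * K * g + 1) (a0 * K) (b0 * K)) T
      (pk K h Tu g NL Dl R T Sh Cc μ B q κ a D) := by
  subst hqA hqB hqL hqO
  exact pk_greedy hD hSh hcap hh hDl hj hr

theorem pk_congr {q q' κ : ℕ} (h1 : qA g q = qA g q') (h2 : qB g q = qB g q')
    (h3 : qL g NL q = qL g NL q') (h4 : qO g NL Dl q = qO g NL Dl q')
    (h5 : qR g NL Dl R q = qR g NL Dl R q') :
    pk K h Tu g NL Dl R T Sh Cc μ B q κ a D = pk K h Tu g NL Dl R T Sh Cc μ B q' κ a D := by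
  unfold pk stored
  rw [h1, h2, h3, h4, h5]

/-- **Certificates.** Outside the failure event the certified cost of the region is below the
mean cost of the stored paths one window later. -/
theorem cert_of (N : Net K Tu g μ B a η z)
    (hO : TopOK K h Tu g NL Dl R T Sh Cc μ B a cnt D CR coin) {Sm NR : ℕ} {Bd d : ℝ}
    (hcnt : cntQ g NL Dl R Sm ≤ cnt) (hT : 0 < T) (hd : 0 ≤ d)
    (hBd : ∀ t, (CR t (z 0) (z K) : ℝ) ≤ Bd)
    (hF : ¬ H423.FailTopA K h Tu g NL Dl R T Sh Cc μ B a (cn K Tu a η (z 0)) (cn K Tu a η (z K))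
      Sm NR Bd d D coin) {l o r κ : ℕ} (hl : l < NL) (ho : o < Dl) (hr : r < R) (hκ : κ < NR)
    (hact : actD (K + 2) (2 * K * g + 1) (cn K Tu a η (z 0) * K) (cn K Tu a η (z K) * K) Dl o
      (cdiv (K * Tu) (2 ^ l)) (cdiv (K * Tu) (2 ^ (l + 1))) (nodeD K Tu g μ B a D)
        (H801.blk Dl o κ))
    (hrk : rk (actD (K + 2) (2 * K * g + 1) (cn K Tu a η (z 0) * K) (cn K Tu a η (z K) * K) Dl o
      (cdiv (K * Tu) (2 ^ l)) (cdiv (K * Tu) (2 ^ (l + 1))) (nodeD K Tu g μ B a D))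
        (H801.blk Dl o κ) < R) :
    (CR κ (z 0) (z K) : ℝ) ≤
      H782.val (Dr (K + 2) (2 * K * g + 1) (nodeD K Tu g μ B a D) (κ + h))
        (H782.xx (pk K h Tu g NL Dl R T Sh Cc μ B
          (encQ g NL Dl R (cn K Tu a η (z 0)) (cn K Tu a η (z K)) l o r 0) κ a D) T) +
        (d + 4 * (K * η)) := by
  set a0 := cn K Tu a η (z 0) with ha0
  set b0 := cn K Tu a η (z K) with hb0
  have ha : a0 ≤ g := N.cn_zero_le
  have hb : b0 ≤ 2 * g := N.cn_K_le
  have hT' : (0 : ℝ) < T := by exact_mod_cast hT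
  have hval : H782.val (Dr (K + 2) (2 * K * g + 1) (nodeD K Tu g μ B a D) (κ + h))
        (H782.xx (pk K h Tu g NL Dl R T Sh Cc μ B (encQ g NL Dl R a0 b0 l o r 0) κ a D) T) =
      (∑ n ∈ range T, H659.pcT K h Tu g NL Dl R T Sh Cc μ B a
        (encQ g NL Dl R a0 b0 l o r 0) D κ n) / T := by
    rw [eq_div_iff hT'.ne', mul_comm, H782.val_xx _ _ hT]
    rfl
  rw [hval]
  by_cases hle : (∑ n ∈ range T, H659.pcT K h Tu g NL Dl R T Sh Cc μ B a
      (encQ g NL Dl R a0 b0 l o r 0) D κ n) / T ≤ Bd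
  · obtain ⟨sm, hsm, hs⟩ := H423.exists_sampleA hF hl ho hr hκ hact hrk hle
    obtain ⟨e1, e2, e3, e4, e5, e6⟩ := dec_enc (sm := sm) ha hb hl ho hr
    obtain ⟨f1, f2, f3, f4, f5, -⟩ := dec_enc (sm := 0) ha hb hl ho hr
    have h1 := hO.stored (encQ g NL Dl R a0 b0 l o r sm)
      ((enc_lt ha hb hl ho hr hsm).trans_le hcnt) κ
    rw [e6, pk_congr (q' := encQ g NL Dl R a0 b0 l o r 0) (by rw [e1, f1]) (by rw [e2, f2])
      (by rw [e3, f3]) (by rw [e4, f4]) (by rw [e5, f5]), e1, e2] at h1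
    have h2 := (CR_coarse N hO κ).trans (Nat.add_le_add_right h1 _)
    have h3 : (CR κ (z 0) (z K) : ℝ) ≤ H659.pcT K h Tu g NL Dl R T Sh Cc μ B a
        (encQ g NL Dl R a0 b0 l o r 0) D κ (coin sm % T) + 4 * (K * η) := by
      unfold H659.pcT
      exact_mod_cast h2
    linarith
  · have h1 := hBd κ
    have h2 : (0 : ℝ) ≤ 4 * (K * η) := by positivity
    linarith [not_le.1 hle]

/-- **The machine inequality of one region** for the class `l` and the offset `o`. -/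
theorem top_h3b (N : Net K Tu g μ B a η z)
    (hO : TopOK K h Tu g NL Dl R T Sh Cc μ B a cnt D CR coin) {Sm NR : ℕ} {Bd d : ℝ}
    (hcnt : cntQ g NL Dl R Sm ≤ cnt) (hT : 0 < T) (hSh : 0 < Sh) (hd : 0 ≤ d)
    (hBd : ∀ t, (CR t (z 0) (z K) : ℝ) ≤ Bd)
    (hF : ¬ H423.FailTopA K h Tu g NL Dl R T Sh Cc μ B a (cn K Tu a η (z 0)) (cn K Tu a η (z K))
      Sm NR Bd d D coin)
    {DU : Fin K → ℝ} {w ε : ℝ} (hw : 0 < w) (hε : 0 ≤ ε)
    (lowU : ∀ t (u : Fin K), DU u - ε * w ≤ (D t u (z u / Tu) (z u) (z (u + 1)) : ℝ))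
    (lowR : ∀ t, ∑ u, DU u - ε * (K * w) ≤ (CR t (z 0) (z K) : ℝ))
    (upU : ∀ u : Fin K, (D 0 u (z u / Tu) (z u) (z (u + 1)) : ℝ) ≤ DU u + w)
    {l o : ℕ} (hl : l < NL) (ho : o < Dl)
    (hR : K * w * (1 + ε) + 12 * (K * η) < R * (cdiv (K * Tu) (2 ^ (l + 1)) : ℕ))
    {cN : ℝ} (hcN : 0 ≤ cN) (hcap : w * (cN + ε) + 8 * η ≤ (cdiv (Cc * Tu) (2 ^ l) : ℕ))
    (hh : 0 < h) (hhl : h ≤ Dl) {A : ℕ → Prop} [DecidablePred A]
    (hA : ∀ j, A j → actD (K + 2) (2 * K * g + 1) (cn K Tu a η (z 0) * K)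
      (cn K Tu a η (z K) * K) Dl o (cdiv (K * Tu) (2 ^ l)) (cdiv (K * Tu) (2 ^ (l + 1)))
      (nodeD K Tu g μ B a D) j)
    {jc N' : ℕ} (hAc : ∀ j, A j → jc ≤ j) (hAo : ∀ j, A j → o ≤ j * Dl) (hNR : N' * Dl ≤ NR)
    {th : ℝ} (hth0 : 0 < th) (hth1 : th ≤ 1 / 2) :
    ∑ j ∈ (range N').filter A, lhsE DU w cN
        (fun t (u : Fin K) => (D t u (z u / Tu) (z u) (z (u + 1)) : ℝ)) h Dl (j * Dl - o) ≤
      2 * ∑ j ∈ (range N').filter A, ∑ i ∈ range Dl,
        (VV DU w (fun u : Fin K => (D (j * Dl - o + i) u (z u / Tu) (z u) (z (u + 1)) : ℝ)) -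
          eR DU w (CR (j * Dl - o + i) (z 0) (z K) : ℝ))
      + (1 + (((range N').filter fun j => (actD (K + 2) (2 * K * g + 1)
          (cn K Tu a η (z 0) * K) (cn K Tu a η (z K) * K) Dl o (cdiv (K * Tu) (2 ^ l))
          (cdiv (K * Tu) (2 ^ (l + 1))) (nodeD K Tu g μ B a D) j ∧ jc ≤ j) ∧ ¬ A j).card : ℝ))
        * (h * (((K : ℝ) + 2) / K * ((cdiv (Cc * Tu) (2 ^ l) : ℕ) / w *
          Real.log (((2 * K * g + 1) * (2 * K * g + 1) : ℕ) : ℝ))))
      + (((range N').filter A).card : ℝ) * (Dl * (2 * ε + (4 * (8 * η) + 2 * (d / K + 4 * η)) / w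
          + ((K : ℝ) + 2) / K * ((cdiv (Cc * Tu) (2 ^ l) : ℕ) / w *
            (4 * th + H782.err1 ((2 * K * g + 1) * (2 * K * g + 1)) T (T / Sh) / th)))) := by
  classical
  have hK0 : 0 < K := N.hK
  have hKr : (0 : ℝ) < K := by exact_mod_cast hK0
  have : Nonempty (Fin K) := ⟨⟨0, hK0⟩⟩
  have : Nonempty (Fin (K + 2)) := ⟨⟨0, Nat.succ_pos _⟩⟩
  have : Nonempty (Fin (2 * K * g + 1)) := ⟨⟨0, Nat.succ_pos _⟩⟩
  set a0 := cn K Tu a η (z 0) with ha0
  set b0 := cn K Tu a η (z K) with hb0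
  set act := actD (K + 2) (2 * K * g + 1) (a0 * K) (b0 * K) Dl o (cdiv (K * Tu) (2 ^ l))
    (cdiv (K * Tu) (2 ^ (l + 1))) (nodeD K Tu g μ B a D) with hact
  have ha : a0 ≤ g := N.cn_zero_le
  have hb : b0 ≤ 2 * g := N.cn_K_le
  have hDl : 0 < Dl := lt_of_lt_of_le hh hhl
  have hwc : 0 ≤ w * (cN + ε) := mul_nonneg hw.le (add_nonneg hcN hε)
  have hη : (0 : ℝ) < η := by exact_mod_cast N.hη
  have hcap0 : (0 : ℝ) < (cdiv (Cc * Tu) (2 ^ l) : ℕ) := by linarith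
  have hcap0' : 0 < cdiv (Cc * Tu) (2 ^ l) := by exact_mod_cast hcap0
  have hrk : ∀ j1, rk act j1 < R := fun j1 => rk_lt_R N hO lowR upU hR j1
  -- lengths
  set em : Fin K → Fin (K + 2) := fun u => ⟨u + 1, by omega⟩ with hem
  have hemi : Function.Injective em := fun u v huv => by
    have := congrArg Fin.val huv
    simp only [hem] at this
    exact Fin.ext (by omega)
  have hrem : ∀ u, rr K η (em u) = 4 * η := fun u => by
    unfold rr
    have := u.2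
    rw [if_pos]
    simp only [hem]
    exact ⟨by omega, by omega⟩
  have key := region_h3b (I := Fin (K + 2)) (E := Fin (2 * K * g + 1) × Fin (2 * K * g + 1))
    (Un := Fin K) (em := em) hemi
    (PP := H763.paths (K + 2) (2 * K * g + 1) (a0 * K) (b0 * K))
    (D := Dr (K + 2) (2 * K * g + 1) (nodeD K Tu g μ B a D))
    (fun t i e => by
      unfold Dr
      exact_mod_cast nodeD_anti hO.anti t i e.1 e.2)
    (cU := fun t (u : Fin K) => (D t u (z u / Tu) (z u) (z (u + 1)) : ℝ))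
    (fun u => antitone_nat_of_succ_le fun t => by exact_mod_cast hO.anti t _ _ _ _)
    (cR := fun t => (CR t (z 0) (z K) : ℝ)) (DU := DU) (w := w) hw (ε := ε)
    (d := d / K + 4 * η) (rb := 8 * η) (r := fun i => rr K η i) hε (fun i => rr_nonneg _ _ _)
    (by positivity) (by rw [sum_rr, Fintype.card_fin])
    lowU (by simpa only [Fintype.card_fin] using lowR)
    (fun t => by
      have h1 : ((CR t (z 0) (z K) : ℕ) : ℝ) ≤
          ((∑ u ∈ range K, D t u (z u / Tu) (z u) (z (u + 1)) : ℕ) : ℝ) := by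
        exact_mod_cast H1_path N hO t
      push_cast at h1
      rwa [← Fin.sum_univ_eq_sum_range
        (fun u => (D t u (z u / Tu) (z u) (z (u + 1)) : ℝ)) K] at h1)
    (p := pp N) (pp_mem N)
    (fun t u => by
      rw [hrem]
      exact unit_close N hO t u.2)
    (fun t i hi => by
      have hi2 := i.2
      have hi' : (i : ℕ) = 0 ∨ (i : ℕ) = K + 1 := by
        by_contra hc
        push Not at hc
        refine hi ⟨i - 1, by omega⟩ (Fin.ext ?_)
        simp only [hem]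
        omega
      show (nodeD K Tu g μ B a D t i (FF K Tu a η z i) (FF K Tu a η z (i + 1)) : ℝ) ≤
        rr K η i
      unfold rr
      rcases hi' with h1 | h1
      · rw [h1, if_neg (by omega)]
        exact_mod_cast first_close N t
      · rw [h1, if_neg (by omega)]
        exact_mod_cast last_close N t)
    (cap := (cdiv (Cc * Tu) (2 ^ l) : ℕ)) (cN := cN) hcap0
    (fun u => by rw [hrem]; linarith)
    (o := o) (len := Dl) (h := h) hh hhl (act := act) (A := A) (jc := jc) hA hAc (N := N')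
    hAo (S := Sh) (T := T) hSh hT
    (pk := fun j1 t => pk K h Tu g NL Dl R T Sh Cc μ B
      (encQ g NL Dl R a0 b0 l o (rk act j1) 0) t a D)
    (fun j1 t _ _ _ _ _ hj => by
      obtain ⟨f1, f2, f3, f4, f5, -⟩ := dec_enc (sm := 0) ha hb hl ho (hrk j1)
      exact pk_greedy' f1 f2 f3 f4 hO.anti hSh hcap0' hh hDl hj f5)
    (fun j1 t hb1 _ hAt _ _ _ => by
      have ht : t < NR := by
        have h1 : t + o < N' * Dl := (Nat.div_lt_iff_lt_mul hDl).1 hb1
        omega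
      have h1 := cert_of N hO hcnt hT hd hBd hF hl ho (hrk j1) ht (hA _ hAt) (hrk _)
      refine h1.trans (le_of_eq ?_)
      rw [Fintype.card_fin]
      congr 1
      field_simp)
    hth0 hth1
  simp only [Fintype.card_prod, Fintype.card_fin] at key
  push_cast at key ⊢
  exact key

end

end Vale.Agent.P315.H132
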